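import Mathlib

/-!
# P252: definitions for the affine Bernstein problem
-/

open scoped ContDiff Topology
open Set Filter

namespace Vale.Agent.P252

/-- Euclidean `n`-space. -/
abbrev Rn (n : ℕ) := EuclideanSpace ℝ (Fin n)

/-- The `i`-th partial derivative of `f` at `x`. -/
noncomputable def pd {n : ℕ} (i : Fin n) (f : Rn n → ℝ) (x : Rn n) : ℝ :=
  fderiv ℝ f x (EuclideanSpace.single i 1)

/-- The Hessian matrix `D²f(x)`, with entries `∂_i ∂_j f(x)`. -/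
noncomputable def hess {n : ℕ} (f : Rn n → ℝ) (x : Rn n) : Matrix (Fin n) (Fin n) ℝ :=
  Matrix.of fun i j => pd i (pd j f) x

/-- `U^{ij} = det(D²u) (D²u)^{-1}_{ij}`. -/
noncomputable def cofU {n : ℕ} (u : Rn n → ℝ) (x : Rn n) : Matrix (Fin n) (Fin n) ℝ :=
  (hess u x).det • (hess u x)⁻¹

/-- `w = (det D²u)^{-(n+1)/(n+2)}`. -/
noncomputable def affW {n : ℕ} (u : Rn n → ℝ) (x : Rn n) : ℝ :=
  (hess u x).det ^ (-((n : ℝ) + 1) / ((n : ℝ) + 2))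

/-- The affine maximal equation (AM) on `Ω`: `∑_{i,j} U^{ij} ∂_{ij} w = 0`. -/
def AffineMaximalOn {n : ℕ} (Ω : Set (Rn n)) (u : Rn n → ℝ) : Prop :=
  ∀ x ∈ Ω, ∑ i, ∑ j, cofU u x i j * hess (affW u) x i j = 0

/-- The length of the `C¹` curve `γ|_[0,1]` for the metric `g_{ij} = δ_{ij} + u_i u_j`
induced on the graph of `u` by the Euclidean metric of `ℝ^{n+1}`. -/
noncomputable def graphLength {n : ℕ} (u : Rn n → ℝ) (γ : ℝ → Rn n) : ℝ :=
  ∫ s in (0 : ℝ)..1, Real.sqrt (‖deriv γ s‖ ^ 2 + (fderiv ℝ u (γ s) (deriv γ s)) ^ 2)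

/-- The Riemannian distance on `Ω` of the metric `g_{ij} = δ_{ij} + u_i u_j`:
infimum of the lengths of the `C¹` curves in `Ω` joining `x` to `y`. -/
noncomputable def graphDist {n : ℕ} (Ω : Set (Rn n)) (u : Rn n → ℝ) (x y : Rn n) : ℝ :=
  sInf {L : ℝ | ∃ γ : ℝ → Rn n, ContDiff ℝ 1 γ ∧ (∀ s ∈ Icc (0 : ℝ) 1, γ s ∈ Ω) ∧
    γ 0 = x ∧ γ 1 = y ∧ L = graphLength u γ}

/-- The graph of `u` over `Ω` is Euclidean complete: every Cauchy sequence of points of `Ω`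
for the distance `graphDist Ω u` converges for this distance to a point of `Ω`. -/
def EuclideanComplete {n : ℕ} (Ω : Set (Rn n)) (u : Rn n → ℝ) : Prop :=
  ∀ x : ℕ → Rn n, (∀ k, x k ∈ Ω) →
    (∀ ε > 0, ∃ N, ∀ p ≥ N, ∀ q ≥ N, graphDist Ω u (x p) (x q) < ε) →
    ∃ y ∈ Ω, Tendsto (fun k => graphDist Ω u (x k) y) atTop (𝓝 0)

/-- `u` is a quadratic polynomial. -/
def IsQuadratic {n : ℕ} (u : Rn n → ℝ) : Prop :=
  ∃ (A : Matrix (Fin n) (Fin n) ℝ) (b : Fin n → ℝ) (c : ℝ),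
    ∀ x : Rn n, u x = (∑ i, ∑ j, A i j * x i * x j) / 2 + ∑ i, b i * x i + c

/-- The graph of `u` (over all of `ℝ^n`) is an elliptic paraboloid. -/
def IsEllipticParaboloid {n : ℕ} (u : Rn n → ℝ) : Prop :=
  ∃ (A : Matrix (Fin n) (Fin n) ℝ) (b : Fin n → ℝ) (c : ℝ), A.PosDef ∧
    ∀ x : Rn n, u x = (∑ i, ∑ j, A i j * x i * x j) / 2 + ∑ i, b i * x i + c

/-- The affine Bernstein statement (Q1) in dimension `n`. -/
def AffineBernstein (n : ℕ) : Prop :=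
  ∀ (Ω : Set (Rn n)) (u : Rn n → ℝ), Ω.Nonempty → IsOpen Ω → Convex ℝ Ω →
    ContDiffOn ℝ ∞ u Ω → (∀ x ∈ Ω, (hess u x).PosDef) → AffineMaximalOn Ω u →
    EuclideanComplete Ω u → Ω = univ ∧ IsEllipticParaboloid u

/-- The entire-graph form in dimension `n`. -/
def EntireAffineBernstein (n : ℕ) : Prop :=
  ∀ u : Rn n → ℝ, ContDiff ℝ ∞ u → (∀ x, (hess u x).PosDef) →
    AffineMaximalOn univ u → IsQuadratic u

end Vale.Agent.P252
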