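import Mathlib
import Vale.Agent.P252.Defs

/-!
Entire graphs are Euclidean complete.
-/

open scoped ContDiff Topology
open Set Filter MeasureTheory

namespace Vale.Agent.P252

variable {n : ℕ}

lemma graph_integrand_cont {u : Rn n → ℝ} (hu : ContDiff ℝ 1 u) {γ : ℝ → Rn n}
    (hγ : ContDiff ℝ 1 γ) :
    Continuous fun s => Real.sqrt (‖deriv γ s‖ ^ 2 + (fderiv ℝ u (γ s) (deriv γ s)) ^ 2) := by
  have h1 : Continuous (deriv γ) := hγ.continuous_deriv le_rfl
  have h2 : Continuous (fderiv ℝ u) := hu.continuous_fderiv (by norm_num)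
  have h3 : Continuous fun s => fderiv ℝ u (γ s) (deriv γ s) :=
    (h2.comp hγ.continuous).clm_apply h1
  exact ((h1.norm.pow 2).add (h3.pow 2)).sqrt

lemma dist_le_graphLength {u : Rn n → ℝ} (hu : ContDiff ℝ 1 u) {γ : ℝ → Rn n}
    (hγ : ContDiff ℝ 1 γ) : ‖γ 1 - γ 0‖ ≤ graphLength u γ := by
  have h1 : Continuous (deriv γ) := hγ.continuous_deriv le_rfl
  have h2 : ∫ s in (0 : ℝ)..1, deriv γ s = γ 1 - γ 0 := by
    apply intervalIntegral.integral_deriv_eq_sub
    · intro x _
      exact (hγ.differentiable (by norm_num)).differentiableAt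
    · exact h1.intervalIntegrable _ _
  rw [← h2]
  refine (intervalIntegral.norm_integral_le_integral_norm zero_le_one).trans ?_
  unfold graphLength
  apply intervalIntegral.integral_mono_on zero_le_one
  · exact h1.norm.intervalIntegrable _ _
  · exact (graph_integrand_cont hu hγ).intervalIntegrable _ _
  · intro s _
    apply Real.le_sqrt_of_sq_le
    nlinarith [sq_nonneg (fderiv ℝ u (γ s) (deriv γ s))]

/-- the segment from `x` to `y` -/
noncomputable def seg (x y : Rn n) (s : ℝ) : Rn n := x + s • (y - x)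

lemma seg_contDiff (x y : Rn n) : ContDiff ℝ 1 (seg x y) := by
  unfold seg; fun_prop

lemma seg_deriv (x y : Rn n) (s : ℝ) : deriv (seg x y) s = y - x := by
  have h : HasDerivAt (seg x y) (y - x) s := by
    unfold seg
    have := ((hasDerivAt_id s).smul_const (y - x)).const_add x
    simpa using this
  exact h.deriv

lemma seg_mem_dist (u : Rn n → ℝ) (x y : Rn n) :
    graphLength u (seg x y) ∈ {L : ℝ | ∃ γ : ℝ → Rn n, ContDiff ℝ 1 γ ∧
      (∀ s ∈ Icc (0 : ℝ) 1, γ s ∈ (univ : Set (Rn n))) ∧ γ 0 = x ∧ γ 1 = y ∧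
        L = graphLength u γ} :=
  ⟨seg x y, seg_contDiff x y, fun _ _ => mem_univ _, by simp [seg], by simp [seg], rfl⟩

lemma dist_le_graphDist {u : Rn n → ℝ} (hu : ContDiff ℝ 1 u) (x y : Rn n) :
    ‖y - x‖ ≤ graphDist univ u x y := by
  apply le_csInf ⟨_, seg_mem_dist u x y⟩
  rintro L ⟨γ, hγ, -, h0, h1, rfl⟩
  have := dist_le_graphLength hu hγ
  rwa [h0, h1] at this

lemma graphDist_le {u : Rn n → ℝ} (x y : Rn n) :
    graphDist univ u x y ≤ graphLength u (seg x y) := by
  apply csInf_le _ (seg_mem_dist u x y)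
  refine ⟨0, ?_⟩
  rintro L ⟨γ, -, -, -, -, rfl⟩
  apply intervalIntegral.integral_nonneg zero_le_one
  intro s _
  exact Real.sqrt_nonneg _

lemma graphLength_seg_le {u : Rn n → ℝ} (hu : ContDiff ℝ 1 u) {x y : Rn n} {L : ℝ}
    (hL : ∀ s ∈ Icc (0 : ℝ) 1, ‖fderiv ℝ u (seg x y s)‖ ≤ L) :
    graphLength u (seg x y) ≤ (1 + L) * ‖y - x‖ := by
  have hL0 : 0 ≤ L := (norm_nonneg _).trans (hL 0 ⟨le_rfl, zero_le_one⟩)
  have h1 : graphLength u (seg x y) ≤ ∫ _ in (0 : ℝ)..1, (1 + L) * ‖y - x‖ := by
    unfold graphLength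
    apply intervalIntegral.integral_mono_on zero_le_one
    · exact (graph_integrand_cont hu (seg_contDiff x y)).intervalIntegrable _ _
    · exact intervalIntegrable_const
    · intro s hs
      rw [seg_deriv]
      apply Real.sqrt_le_iff.mpr
      refine ⟨by positivity, ?_⟩
      have h2 : |fderiv ℝ u (seg x y s) (y - x)| ≤ L * ‖y - x‖ := by
        rw [← Real.norm_eq_abs]
        exact ((fderiv ℝ u (seg x y s)).le_opNorm _).trans
          (mul_le_mul_of_nonneg_right (hL s hs) (norm_nonneg _))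
      have h3 : (fderiv ℝ u (seg x y s) (y - x)) ^ 2 ≤ (L * ‖y - x‖) ^ 2 := by
        rw [← sq_abs]
        exact pow_le_pow_left₀ (abs_nonneg _) h2 2
      have h4 : 0 ≤ L * ‖y - x‖ ^ 2 := by positivity
      nlinarith
  simpa using h1

/-- Every entire graph of class `C¹` is complete for the induced Euclidean metric. -/
theorem euclideanComplete_univ {u : Rn n → ℝ} (hu : ContDiff ℝ 1 u) :
    EuclideanComplete univ u := by
  intro x _ hx
  have hcau : CauchySeq x := by
    rw [Metric.cauchySeq_iff]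
    intro ε hε
    obtain ⟨N, hN⟩ := hx ε hε
    refine ⟨N, fun p hp q hq => ?_⟩
    rw [dist_comm, dist_eq_norm]
    exact (dist_le_graphDist hu (x p) (x q)).trans_lt (hN p hp q hq)
  obtain ⟨y, hy⟩ := cauchySeq_tendsto_of_complete hcau
  refine ⟨y, mem_univ _, ?_⟩
  have h2 : Continuous (fderiv ℝ u) := hu.continuous_fderiv (by norm_num)
  have h2c : ContinuousAt (fun z => ‖fderiv ℝ u z‖) y := h2.norm.continuousAt
  obtain ⟨δ, hδ, hball⟩ := Metric.continuousAt_iff.mp h2c 1 one_pos
  set L : ℝ := ‖fderiv ℝ u y‖ + 1 with hL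
  have hev : ∀ᶠ k in atTop, dist (x k) y < δ := (Metric.tendsto_nhds.mp hy) δ hδ
  have hlim : Tendsto (fun k => (1 + L) * ‖y - x k‖) atTop (𝓝 0) := by
    have h3 : Tendsto (fun k => ‖y - x k‖) atTop (𝓝 0) := by
      have := (tendsto_const_nhds (x := y)).sub hy
      have h4 := this.norm
      simpa using h4
    simpa using h3.const_mul (1 + L)
  refine squeeze_zero' (Eventually.of_forall fun k => ?_) ?_ hlim
  · exact (norm_nonneg _).trans (dist_le_graphDist hu (x k) y)
  · filter_upwards [hev] with k hk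
    refine (graphDist_le (x k) y).trans (graphLength_seg_le hu ?_)
    intro s hs
    have hd : dist (seg (x k) y s) y < δ := by
      rw [dist_eq_norm]
      have : seg (x k) y s - y = (1 - s) • (x k - y) := by
        unfold seg
        module
      rw [this, norm_smul, Real.norm_eq_abs, abs_of_nonneg (by linarith [hs.2])]
      rw [dist_eq_norm] at hk
      have h5 : (1 - s) * ‖x k - y‖ ≤ 1 * ‖x k - y‖ :=
        mul_le_mul_of_nonneg_right (by linarith [hs.1]) (norm_nonneg _)
      linarith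
    have := hball hd
    rw [Real.dist_eq] at this
    have h6 := (abs_lt.mp this).2
    linarith

end Vale.Agent.P252
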