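import Mathlib

/-!
Global existence for autonomous ODEs with a bounded, globally Lipschitz vector field.
-/

open Set Metric
open scoped NNReal Topology

namespace Vale.Agent.P252

/-- A bounded and globally Lipschitz autonomous vector field has global integral curves. -/
theorem exists_global_solution {E : Type*} [NormedAddCommGroup E] [NormedSpace ℝ E]
    [CompleteSpace E] (X : E → E) (K L : ℝ≥0) (hX : LipschitzWith K X)
    (hL : ∀ x, ‖X x‖ ≤ L) (x₀ : E) :
    ∃ α : ℝ → E, α 0 = x₀ ∧ ∀ t, HasDerivAt α (X (α t)) t := by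
  -- solutions on `[-(N+1), N+1]`
  have hloc : ∀ N : ℕ, ∃ α : ℝ → E, α 0 = x₀ ∧
      ∀ t ∈ Ioo (-(N + 1 : ℝ)) (N + 1), HasDerivAt α (X (α t)) t := by
    intro N
    have h0 : (0 : ℝ) ∈ Icc (-(N + 1 : ℝ)) (N + 1) := by
      constructor <;> [skip; skip] <;> have := (Nat.cast_nonneg N : (0 : ℝ) ≤ N) <;> linarith
    have hpl : IsPicardLindelof (fun _ => X) (⟨0, h0⟩ : Icc (-(N + 1 : ℝ)) (N + 1)) x₀
        (L * (N + 1)) 0 L K := by
      constructor
      · intro t ht
        exact hX.lipschitzOnWith
      · intro x hx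
        exact continuousOn_const
      · intro t ht x hx
        exact hL x
      · simp
    obtain ⟨α, hα0, hα⟩ := hpl.exists_eq_forall_mem_Icc_hasDerivWithinAt₀
    exact ⟨α, hα0, fun t ht => (hα t (Ioo_subset_Icc_self ht)).hasDerivAt
      (Icc_mem_nhds ht.1 ht.2)⟩
  choose β hβ0 hβ using hloc
  -- uniqueness: they agree on overlaps
  have hagree : ∀ M N : ℕ, M ≤ N → ∀ t ∈ Ioo (-(M + 1 : ℝ)) (M + 1), β M t = β N t := by
    intro M N hMN t ht
    have hMN' : (M : ℝ) ≤ N := Nat.cast_le.mpr hMN
    have hM0 : (0 : ℝ) ≤ M := Nat.cast_nonneg M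
    refine ODE_solution_unique_of_mem_Ioo (v := fun _ => X) (s := fun _ => univ) (K := K)
      (a := -(M + 1 : ℝ)) (b := M + 1) (t₀ := 0)
      (fun t _ => hX.lipschitzOnWith) ⟨by linarith, by linarith⟩
      (fun s hs => ⟨hβ M s hs, trivial⟩)
      (fun s hs => ⟨hβ N s ⟨by linarith [hs.1], by linarith [hs.2]⟩, trivial⟩)
      (by rw [hβ0, hβ0]) ht
  refine ⟨fun t => β ⌈|t|⌉₊ t, ?_, ?_⟩
  · simp [hβ0]
  · intro t
    set N : ℕ := ⌈|t|⌉₊ with hN
    have htN : |t| ≤ N := Nat.le_ceil _
    have hder : HasDerivAt (β (N + 1)) (X (β (N + 1) t)) t := by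
      apply hβ
      push_cast
      constructor
      · have := neg_abs_le t; linarith
      · have := le_abs_self t; linarith
    have hval : β N t = β (N + 1) t := by
      apply hagree N (N + 1) (Nat.le_succ N)
      constructor
      · have := neg_abs_le t; linarith
      · have := le_abs_self t; linarith
    have hev : (fun s => β ⌈|s|⌉₊ s) =ᶠ[𝓝 t] β (N + 1) := by
      have hopen : Ioo (t - 1) (t + 1) ∈ 𝓝 t := Ioo_mem_nhds (by linarith) (by linarith)
      filter_upwards [hopen] with s hs
      have hs1 : |s| ≤ N + 1 := by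
        have h1 : |s| ≤ |t| + |s - t| := by
          have := abs_add_le t (s - t); simpa using this
        have h2 : |s - t| ≤ 1 := by
          rw [abs_le]; constructor <;> linarith [hs.1, hs.2]
        linarith
      have hle : ⌈|s|⌉₊ ≤ N + 1 := by
        apply Nat.ceil_le.mpr
        push_cast
        exact hs1
      apply hagree _ _ hle
      have h3 : |s| ≤ (⌈|s|⌉₊ : ℝ) := Nat.le_ceil _
      constructor
      · have := neg_abs_le s; linarith
      · have := le_abs_self s; linarith
    have : HasDerivAt (fun s => β ⌈|s|⌉₊ s) (X (β (N + 1) t)) t :=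
      hder.congr_of_eventuallyEq hev
    simpa [← hN, hval] using this

end Vale.Agent.P252
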