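import Mathlib

/-!
Analytic solution of the singular (Briot-Bouquet) equation near `0`.
-/

open Finset
open scoped Topology NNReal ENNReal

namespace Vale.Agent.P252

theorem exists_seq_rec (c : ℝ) (Φ : ℕ → (ℕ → ℝ) → ℝ)
    (hΦ : ∀ k u v, (∀ i ≤ k, u i = v i) → Φ k u = Φ k v) :
    ∃ f : ℕ → ℝ, f 0 = c ∧ ∀ k, f (k + 1) = Φ k f := by
  let F : ℕ → (ℕ → ℝ) := fun n =>
    Nat.rec (fun _ => c) (fun k g => Function.update g (k + 1) (Φ k g)) n
  have hFs : ∀ k, F (k + 1) = Function.update (F k) (k + 1) (Φ k (F k)) := fun k => rfl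
  have hstab : ∀ k i j, i ≤ k → k ≤ j → F j i = F k i := by
    intro k i j hik hkj
    induction j, hkj using Nat.le_induction with
    | base => rfl
    | succ j hj ih => rw [hFs, Function.update_of_ne (by omega), ih]
  refine ⟨fun k => F k k, rfl, fun k => ?_⟩
  change F (k + 1) (k + 1) = _
  rw [hFs, Function.update_self]
  apply hΦ
  intro i hi
  exact hstab i i k le_rfl hi

def conv (u v : ℕ → ℝ) (k : ℕ) : ℝ := ∑ p ∈ antidiagonal k, u p.1 * v p.2
def qq (u : ℕ → ℝ) (k : ℕ) : ℝ := (k + 1) * u k
def sh (v : ℕ → ℝ) : ℕ → ℝ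
  | 0 => 0
  | (k + 1) => v k
noncomputable def wcoef (M : ℝ) (u : ℕ → ℝ) (k : ℕ) : ℝ :=
  (if k = 0 then 2 else 0) + (2 * M + 9) * u k - M ^ 2 * conv u u k - (4 - M) * qq u k
    - M * conv u (qq u) k
    + sh (fun j => 2 * u j + 6 * conv u u j + 2 * qq u j - 2 * conv u (qq u) j) k

lemma conv_congr {u v u' v' : ℕ → ℝ} {k : ℕ} (h : ∀ i ≤ k, u i = u' i) (h' : ∀ i ≤ k, v i = v' i) :
    conv u v k = conv u' v' k := by
  unfold conv
  apply Finset.sum_congr rfl
  intro p hp
  rw [HasAntidiagonal.mem_antidiagonal] at hp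
  rw [h p.1 (by omega), h' p.2 (by omega)]

lemma wcoef_congr {M : ℝ} {u v : ℕ → ℝ} {k : ℕ} (h : ∀ i ≤ k, u i = v i) :
    wcoef M u k = wcoef M v k := by
  have hq : ∀ i ≤ k, qq u i = qq v i := fun i hi => by unfold qq; rw [h i hi]
  unfold wcoef
  rw [h k le_rfl, hq k le_rfl, conv_congr h h, conv_congr h hq]
  congr 1
  cases k with
  | zero => rfl
  | succ k =>
    simp only [sh]
    rw [h k (Nat.le_succ k), hq k (Nat.le_succ k),
      conv_congr (fun i hi => h i (hi.trans (Nat.le_succ k)))
        (fun i hi => h i (hi.trans (Nat.le_succ k))),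
      conv_congr (fun i hi => h i (hi.trans (Nat.le_succ k)))
        (fun i hi => hq i (hi.trans (Nat.le_succ k)))]

theorem exists_coef (M : ℝ) : ∃ u : ℕ → ℝ, u 0 = (2 * M + 3) / (2 * M + M ^ 2) ∧
    ∀ k, u (k + 1) = wcoef M u k / (2 * M * (k + 2) + M ^ 2) := by
  apply exists_seq_rec
  intro k u v h
  rw [wcoef_congr h]

lemma catalan_le_succ (k : ℕ) : catalan k ≤ catalan (k + 1) := by
  rw [catalan_succ']
  have : ((0, k) : ℕ × ℕ) ∈ antidiagonal k := by simp
  calc catalan k = catalan 0 * catalan k := by simp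
    _ ≤ _ := Finset.single_le_sum (f := fun p : ℕ × ℕ => catalan p.1 * catalan p.2)
        (fun p _ => Nat.zero_le _) this

lemma catalan_le_four_pow (k : ℕ) : (catalan k : ℝ) ≤ 4 ^ k := by
  have h1 : catalan k ≤ 4 ^ k := by
    rw [catalan_eq_centralBinom_div]
    exact (Nat.div_le_self _ _).trans (Nat.centralBinom_le_four_pow k)
  exact_mod_cast h1

lemma conv_bound {u v : ℕ → ℝ} {k : ℕ} {R A B : ℝ} (hR : 0 ≤ R) (hA : 0 ≤ A)
    (hu : ∀ i ≤ k, |u i| ≤ A * (R ^ i * catalan i)) (hv : ∀ i ≤ k, |v i| ≤ B * (R ^ i * catalan i)) :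
    |conv u v k| ≤ A * B * (R ^ k * catalan (k + 1)) := by
  unfold conv
  calc |∑ p ∈ antidiagonal k, u p.1 * v p.2|
      ≤ ∑ p ∈ antidiagonal k, |u p.1 * v p.2| := Finset.abs_sum_le_sum_abs _ _
    _ ≤ ∑ p ∈ antidiagonal k, A * B * (R ^ k * (catalan p.1 * catalan p.2 : ℝ)) := by
        apply Finset.sum_le_sum
        intro p hp
        have hp' := HasAntidiagonal.mem_antidiagonal.mp hp
        rw [abs_mul]
        have h1 := hu p.1 (by omega)
        have h2 := hv p.2 (by omega)
        calc |u p.1| * |v p.2| ≤ (A * (R ^ p.1 * catalan p.1)) * (B * (R ^ p.2 * catalan p.2)) :=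
              mul_le_mul h1 h2 (abs_nonneg _)
                (mul_nonneg hA (mul_nonneg (pow_nonneg hR _) (Nat.cast_nonneg _)))
          _ = A * B * (R ^ k * (catalan p.1 * catalan p.2 : ℝ)) := by
              rw [← hp', pow_add]; ring
    _ = A * B * (R ^ k * catalan (k + 1)) := by
        rw [← Finset.mul_sum, ← Finset.mul_sum, catalan_succ']
        push_cast
        rfl

theorem coef_bound {M : ℝ} (hM : 9 ≤ M) {u : ℕ → ℝ} (h0 : u 0 = (2 * M + 3) / (2 * M + M ^ 2))
    (hs : ∀ k, u (k + 1) = wcoef M u k / (2 * M * (k + 2) + M ^ 2)) :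
    ∀ k, |u k| ≤ (M ^ 2 + 4 * M + 23) ^ k * catalan k := by
  set R : ℝ := M ^ 2 + 4 * M + 23 with hR
  have hR1 : 1 ≤ R := by nlinarith
  have hR0 : 0 ≤ R := by linarith
  intro k
  induction k using Nat.strong_induction_on with
  | _ k ih =>
  cases k with
  | zero =>
    rw [h0, pow_zero, catalan_zero, abs_of_nonneg (by positivity)]
    rw [div_le_iff₀ (by positivity)]
    push_cast
    nlinarith
  | succ k =>
    have hb : ∀ i ≤ k, |u i| ≤ 1 * (R ^ i * catalan i) := fun i hi => by
      rw [one_mul]; exact ih i (by omega)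
    have hq : ∀ j ≤ k, ∀ i ≤ j, |qq u i| ≤ ((j : ℝ) + 1) * (R ^ i * catalan i) := by
      intro j hj i hi
      unfold qq
      rw [abs_mul, abs_of_nonneg (by positivity : (0 : ℝ) ≤ (i : ℝ) + 1)]
      have h1 := hb i (hi.trans hj)
      rw [one_mul] at h1
      have h2 : (i : ℝ) + 1 ≤ (j : ℝ) + 1 := by
        have : (i : ℝ) ≤ j := Nat.cast_le.mpr hi
        linarith
      exact mul_le_mul h2 h1 (abs_nonneg _) (by positivity)
    set P : ℝ := R ^ k * catalan (k + 1) with hP
    have hcat1 : (1 : ℝ) ≤ catalan (k + 1) := by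
      have : 1 ≤ catalan (k + 1) := by
        have : ∀ j, 1 ≤ catalan j := by
          intro j
          induction j with
          | zero => simp
          | succ j ihj => exact ihj.trans (catalan_le_succ j)
        exact this _
      exact_mod_cast this
    have hP1 : 1 ≤ P := by
      calc (1 : ℝ) = 1 * 1 := by ring
        _ ≤ R ^ k * catalan (k + 1) :=
          mul_le_mul (one_le_pow₀ hR1) hcat1 zero_le_one (by positivity)
    have hcle : (catalan k : ℝ) ≤ catalan (k + 1) := by exact_mod_cast catalan_le_succ k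
    have hk0 : (0 : ℝ) ≤ k := Nat.cast_nonneg k
    have b1 : |u k| ≤ P := by
      have h1 := hb k le_rfl
      rw [one_mul] at h1
      exact h1.trans (mul_le_mul_of_nonneg_left hcle (by positivity))
    have b2 : |conv u u k| ≤ P := by
      have := conv_bound hR0 zero_le_one hb hb
      simpa [hP] using this
    have b3 : |qq u k| ≤ (k + 1) * P := by
      have h1 := hq k le_rfl k le_rfl
      refine h1.trans (mul_le_mul_of_nonneg_left ?_ (by positivity))
      exact mul_le_mul_of_nonneg_left hcle (by positivity)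
    have b4 : |conv u (qq u) k| ≤ (k + 1) * P := by
      have := conv_bound (B := (k : ℝ) + 1) hR0 zero_le_one hb (hq k le_rfl)
      simpa [hP, mul_assoc] using this
    have b5 : |sh (fun j => 2 * u j + 6 * conv u u j + 2 * qq u j - 2 * conv u (qq u) j) k| ≤
        12 * (k + 1) * P := by
      cases k with
      | zero =>
        simp only [sh, abs_zero]
        positivity
      | succ j =>
        simp only [sh]
        have hj : j ≤ j + 1 := Nat.le_succ j
        have hPj : R ^ j * catalan (j + 1) ≤ P := by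
          rw [hP]
          apply mul_le_mul _ _ (Nat.cast_nonneg _) (by positivity)
          · exact pow_le_pow_right₀ hR1 hj
          · exact_mod_cast catalan_le_succ (j + 1)
        have hjk : (j : ℝ) + 1 ≤ ((j + 1 : ℕ) : ℝ) + 1 := by push_cast; linarith
        have hone : (1 : ℝ) ≤ ((j + 1 : ℕ) : ℝ) + 1 := by
          have : (0 : ℝ) ≤ ((j + 1 : ℕ) : ℝ) := Nat.cast_nonneg _
          linarith
        have hcj : (catalan j : ℝ) ≤ catalan (j + 1) := by exact_mod_cast catalan_le_succ j
        have c1 : |u j| ≤ P := by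
          have h1 := hb j hj
          rw [one_mul] at h1
          exact (h1.trans (mul_le_mul_of_nonneg_left hcj (by positivity))).trans hPj
        have c2 : |conv u u j| ≤ P := by
          have := conv_bound hR0 zero_le_one (fun i hi => hb i (hi.trans hj))
            (fun i hi => hb i (hi.trans hj))
          simp only [one_mul] at this
          exact this.trans hPj
        have c3 : |qq u j| ≤ ((j + 1 : ℕ) + 1) * P := by
          have h1 := hq j hj j le_rfl
          refine h1.trans (mul_le_mul hjk ?_ (by positivity) (by positivity))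
          exact (mul_le_mul_of_nonneg_left hcj (by positivity)).trans hPj
        have c4 : |conv u (qq u) j| ≤ ((j + 1 : ℕ) + 1) * P := by
          have := conv_bound (B := (j : ℝ) + 1) hR0 zero_le_one (fun i hi => hb i (hi.trans hj))
            (hq j hj)
          rw [one_mul] at this
          exact this.trans (mul_le_mul hjk hPj (by positivity) (by positivity))
        have d1 : |2 * u j + 6 * conv u u j + 2 * qq u j - 2 * conv u (qq u) j| ≤
            2 * |u j| + 6 * |conv u u j| + 2 * |qq u j| + 2 * |conv u (qq u) j| := by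
          have e1 := abs_sub (2 * u j + 6 * conv u u j + 2 * qq u j) (2 * conv u (qq u) j)
          have e2 := abs_add_le (2 * u j + 6 * conv u u j) (2 * qq u j)
          have e3 := abs_add_le (2 * u j) (6 * conv u u j)
          simp only [abs_mul, abs_two, abs_of_pos (by norm_num : (0 : ℝ) < 6)] at e1 e2 e3
          linarith
        have hP0 : 0 ≤ P := by linarith
        nlinarith [mul_le_mul_of_nonneg_right hone hP0]
    rw [hs k, abs_div]
    have hden : 0 < 2 * M * ((k : ℝ) + 2) + M ^ 2 := by positivity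
    rw [abs_of_pos hden, div_le_iff₀ hden]
    have hW : |wcoef M u k| ≤ (k + 1) * P * R := by
      unfold wcoef
      have e0 : |(if k = 0 then (2 : ℝ) else 0)| ≤ 2 := by
        split_ifs <;> simp
      have hM4 : |4 - M| ≤ M := by
        rw [abs_le]; constructor <;> linarith
      set S5 := sh (fun j => 2 * u j + 6 * conv u u j + 2 * qq u j - 2 * conv u (qq u) j) k
      have t1 := abs_add_le ((if k = 0 then (2 : ℝ) else 0) + (2 * M + 9) * u k
        - M ^ 2 * conv u u k - (4 - M) * qq u k - M * conv u (qq u) k) S5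
      have t2 := abs_sub ((if k = 0 then (2 : ℝ) else 0) + (2 * M + 9) * u k
        - M ^ 2 * conv u u k - (4 - M) * qq u k) (M * conv u (qq u) k)
      have t3 := abs_sub ((if k = 0 then (2 : ℝ) else 0) + (2 * M + 9) * u k
        - M ^ 2 * conv u u k) ((4 - M) * qq u k)
      have t4 := abs_sub ((if k = 0 then (2 : ℝ) else 0) + (2 * M + 9) * u k)
        (M ^ 2 * conv u u k)
      have t5 := abs_add_le (if k = 0 then (2 : ℝ) else 0) ((2 * M + 9) * u k)
      have s1 : |(2 * M + 9) * u k| ≤ (2 * M + 9) * P := by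
        rw [abs_mul, abs_of_pos (by linarith : (0 : ℝ) < 2 * M + 9)]
        exact mul_le_mul_of_nonneg_left b1 (by linarith)
      have s2 : |M ^ 2 * conv u u k| ≤ M ^ 2 * P := by
        rw [abs_mul, abs_of_nonneg (sq_nonneg M)]
        exact mul_le_mul_of_nonneg_left b2 (sq_nonneg M)
      have s3 : |(4 - M) * qq u k| ≤ M * ((k + 1) * P) := by
        rw [abs_mul]
        exact mul_le_mul hM4 b3 (abs_nonneg _) (by linarith)
      have s4 : |M * conv u (qq u) k| ≤ M * ((k + 1) * P) := by
        rw [abs_mul, abs_of_pos (by linarith : (0 : ℝ) < M)]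
        exact mul_le_mul_of_nonneg_left b4 (by linarith)
      have hP0 : 0 ≤ P := by linarith
      have hkP : 0 ≤ (k : ℝ) * P := mul_nonneg hk0 hP0
      have hfin : 2 + (2 * M + 9) * P + M ^ 2 * P + M * ((k + 1) * P) + M * ((k + 1) * P)
          + 12 * (k + 1) * P ≤ (k + 1) * P * R := by
        rw [hR]
        nlinarith [mul_nonneg (by linarith : (0:ℝ) ≤ M) hkP, mul_nonneg (sq_nonneg M) hkP]
      linarith
    have hfin2 : (k + 1) * P * R ≤ R ^ (k + 1) * catalan (k + 1) * (2 * M * ((k : ℝ) + 2) + M ^ 2) := by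
      have : R ^ (k + 1) * catalan (k + 1) = P * R := by rw [hP, pow_succ]; ring
      rw [this]
      have hPR : 0 ≤ P * R := by positivity
      have : (k : ℝ) + 1 ≤ 2 * M * ((k : ℝ) + 2) + M ^ 2 := by nlinarith
      nlinarith [mul_le_mul_of_nonneg_left this hPR]
    exact hW.trans hfin2

/-! ### Sums -/

lemma tsum_sh (v : ℕ → ℝ) (x : ℝ) (hv : Summable fun k => v k * x ^ k) :
    ∑' k, sh v k * x ^ k = x * ∑' k, v k * x ^ k := by
  have hs : Summable fun k => sh v k * x ^ k := by
    rw [← summable_nat_add_iff 1]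
    have : (fun k => sh v (k + 1) * x ^ (k + 1)) = fun k => x * (v k * x ^ k) := by
      funext k
      simp only [sh, pow_succ]
      ring
    rw [this]
    exact hv.mul_left x
  rw [hs.tsum_eq_zero_add]
  simp only [sh, zero_mul, zero_add]
  rw [← tsum_mul_left]
  congr 1
  funext k
  rw [pow_succ]
  ring

lemma summable_sh {v : ℕ → ℝ} {x : ℝ} (hv : Summable fun k => v k * x ^ k) :
    Summable fun k => sh v k * x ^ k := by
  rw [← summable_nat_add_iff 1]
  have : (fun k => sh v (k + 1) * x ^ (k + 1)) = fun k => x * (v k * x ^ k) := by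
    funext k
    simp only [sh, pow_succ]
    ring
  rw [this]
  exact hv.mul_left x

lemma conv_term (u v : ℕ → ℝ) (x : ℝ) (k : ℕ) :
    conv u v k * x ^ k = ∑ p ∈ antidiagonal k, (u p.1 * x ^ p.1) * (v p.2 * x ^ p.2) := by
  unfold conv
  rw [Finset.sum_mul]
  apply Finset.sum_congr rfl
  intro p hp
  rw [← HasAntidiagonal.mem_antidiagonal.mp hp, pow_add]
  ring

lemma summable_conv {u v : ℕ → ℝ} {x : ℝ} (hu : Summable fun k => ‖u k * x ^ k‖)
    (hv : Summable fun k => ‖v k * x ^ k‖) : Summable fun k => conv u v k * x ^ k := by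
  have := summable_norm_sum_mul_antidiagonal_of_summable_norm hu hv
  simp_rw [← conv_term] at this
  exact this.of_norm

lemma tsum_conv {u v : ℕ → ℝ} {x : ℝ} (hu : Summable fun k => ‖u k * x ^ k‖)
    (hv : Summable fun k => ‖v k * x ^ k‖) :
    ∑' k, conv u v k * x ^ k = (∑' k, u k * x ^ k) * ∑' k, v k * x ^ k := by
  rw [tsum_mul_tsum_eq_tsum_sum_antidiagonal_of_summable_norm hu hv]
  simp_rw [← conv_term]

/-- The functional equation satisfied by the sums. -/
theorem sum_identity {M : ℝ} (hM : 9 ≤ M) {u : ℕ → ℝ}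
    (h0 : u 0 = (2 * M + 3) / (2 * M + M ^ 2))
    (hs : ∀ k, u (k + 1) = wcoef M u k / (2 * M * (k + 2) + M ^ 2)) {x : ℝ}
    (hu : Summable fun k => ‖u k * x ^ k‖) (hq : Summable fun k => ‖qq u k * x ^ k‖) :
    let f := ∑' k, u k * x ^ k
    let q := ∑' k, qq u k * x ^ k
    2 * M * q + M ^ 2 * f = (2 * M + 3) + x * (2 + (2 * M + 9) * f - M ^ 2 * (f * f)
      - (4 - M) * q - M * (f * q) + x * (2 * f + 6 * (f * f) + 2 * q - 2 * (f * q))) := by
  intro f q
  have hu' := hu.of_norm
  have hq' := hq.of_norm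
  -- coefficient identity
  have hcoef : ∀ k, 2 * M * qq u k + M ^ 2 * u k =
      (if k = 0 then 2 * M + 3 else 0) + sh (wcoef M u) k := by
    intro k
    cases k with
    | zero =>
      simp only [sh, qq, h0]
      have : (2 * M + M ^ 2) ≠ 0 := by positivity
      push_cast
      field_simp
      simp
      ring
    | succ k =>
      simp only [sh, qq]
      have hne : (2 * M * ((k : ℝ) + 2) + M ^ 2) ≠ 0 := by positivity
      have := hs k
      rw [eq_div_iff hne] at this
      rw [← this]
      push_cast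
      simp
      ring
  have hδ : ∀ c : ℝ, HasSum (fun k : ℕ => (if k = 0 then c else 0) * x ^ k) c := by
    intro c
    have := hasSum_single (f := fun k : ℕ => (if k = 0 then c else 0) * x ^ k) 0
      (fun k hk => by simp [hk])
    simpa using this
  set inner : ℕ → ℝ := fun j => 2 * u j + 6 * conv u u j + 2 * qq u j - 2 * conv u (qq u) j
    with hinner
  have hSf : HasSum (fun k => u k * x ^ k) f := hu'.hasSum
  have hSq : HasSum (fun k => qq u k * x ^ k) q := hq'.hasSum
  have hSff : HasSum (fun k => conv u u k * x ^ k) (f * f) := by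
    have := (summable_conv hu hu).hasSum
    rwa [tsum_conv hu hu] at this
  have hSfq : HasSum (fun k => conv u (qq u) k * x ^ k) (f * q) := by
    have := (summable_conv hu hq).hasSum
    rwa [tsum_conv hu hq] at this
  have hSinner : HasSum (fun k => inner k * x ^ k) (2 * f + 6 * (f * f) + 2 * q - 2 * (f * q)) := by
    have := (((hSf.mul_left 2).add (hSff.mul_left 6)).add (hSq.mul_left 2)).sub (hSfq.mul_left 2)
    convert! this using 1
    funext k
    simp only [hinner]; ring
  have hSsh : HasSum (fun k => sh inner k * x ^ k)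
      (x * (2 * f + 6 * (f * f) + 2 * q - 2 * (f * q))) := by
    have h1 := (summable_sh hSinner.summable).hasSum
    rwa [tsum_sh inner x hSinner.summable, hSinner.tsum_eq] at h1
  have hSw : HasSum (fun k => wcoef M u k * x ^ k) (2 + (2 * M + 9) * f - M ^ 2 * (f * f)
      - (4 - M) * q - M * (f * q) + x * (2 * f + 6 * (f * f) + 2 * q - 2 * (f * q))) := by
    have := (((((hδ 2).add (hSf.mul_left (2 * M + 9))).sub (hSff.mul_left (M ^ 2))).sub
      (hSq.mul_left (4 - M))).sub (hSfq.mul_left M)).add hSsh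
    convert! this using 1
    funext k
    simp only [wcoef, hinner]; ring
  have hSshw : HasSum (fun k => sh (wcoef M u) k * x ^ k) (x * (2 + (2 * M + 9) * f
      - M ^ 2 * (f * f) - (4 - M) * q - M * (f * q) +
        x * (2 * f + 6 * (f * f) + 2 * q - 2 * (f * q)))) := by
    have h1 := (summable_sh hSw.summable).hasSum
    rwa [tsum_sh _ x hSw.summable, hSw.tsum_eq] at h1
  have hL := (hSq.mul_left (2 * M)).add (hSf.mul_left (M ^ 2))
  have hR := (hδ (2 * M + 3)).add hSshw
  refine hL.unique ?_
  convert! hR using 1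
  funext k
  have := hcoef k
  linear_combination x ^ k * this

end Vale.Agent.P252
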