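import Mathlib
import Vale.Agent.P252.Series

/-!
The local smooth solution of the singular equation.
-/

open Set
open scoped Topology NNReal ENNReal ContDiff

namespace Vale.Agent.P252

theorem exists_local_f {M : ℝ} (hM : 9 ≤ M) : ∃ ρ > 0, ∃ f : ℝ → ℝ,
    ContDiffOn ℝ ∞ f (Ioo (-ρ) ρ) ∧ f 0 = (2 * M + 3) / (2 * M + M ^ 2) ∧
    ∀ x ∈ Ioo (-ρ) ρ, ∃ f' : ℝ, HasDerivAt f f' x ∧
      (2 + x * f x - x) * (M + 2 * x) * (f x + x * f') =
      (1 + x * f x) * ((2 * M + 3) + 2 * x - M ^ 2 * f x + 6 * x * f x) := by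
  obtain ⟨u, h0, hs⟩ := exists_coef M
  have hb := coef_bound hM h0 hs
  set R : ℝ := M ^ 2 + 4 * M + 23 with hR
  have hRpos : 0 < R := by nlinarith
  set ρ : ℝ := 1 / (8 * R) with hρ
  have hρpos : 0 < ρ := by positivity
  have hρR : 4 * R * ρ = 1 / 2 := by rw [hρ]; field_simp; norm_num
  -- bounds
  have hterm : ∀ (k : ℕ) (x : ℝ), |x| ≤ ρ → |u k * x ^ k| ≤ (1 / 2) ^ k := by
    intro k x hx
    rw [abs_mul, abs_pow]
    calc |u k| * |x| ^ k ≤ (R ^ k * catalan k) * ρ ^ k := by
          apply mul_le_mul (hb k) (pow_le_pow_left₀ (abs_nonneg x) hx k) (by positivity)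
          positivity
      _ ≤ (R ^ k * 4 ^ k) * ρ ^ k := by
          apply mul_le_mul_of_nonneg_right _ (by positivity)
          exact mul_le_mul_of_nonneg_left (catalan_le_four_pow k) (by positivity)
      _ = (4 * R * ρ) ^ k := by rw [mul_pow, mul_pow]; ring
      _ = (1 / 2) ^ k := by rw [hρR]
  have hqterm : ∀ (k : ℕ) (x : ℝ), |x| ≤ ρ → |qq u k * x ^ k| ≤ (k + 1) * (1 / 2) ^ k := by
    intro k x hx
    unfold qq
    rw [mul_assoc, abs_mul, abs_of_nonneg (by positivity : (0 : ℝ) ≤ (k : ℝ) + 1)]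
    exact mul_le_mul_of_nonneg_left (hterm k x hx) (by positivity)
  have hgeo : Summable fun k : ℕ => ((1 : ℝ) / 2) ^ k := summable_geometric_two
  have hgeo2 : Summable fun k : ℕ => ((k : ℝ) + 1) * (1 / 2) ^ k := by
    have h1 : Summable fun k : ℕ => (k : ℝ) ^ 1 * (1 / 2) ^ k :=
      summable_pow_mul_geometric_of_norm_lt_one 1 (by norm_num)
    have := h1.add hgeo
    refine this.congr ?_
    intro k
    ring
  have hsum_u : ∀ x : ℝ, |x| ≤ ρ → Summable fun k => ‖u k * x ^ k‖ := by
    intro x hx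
    exact Summable.of_nonneg_of_le (fun _ => norm_nonneg _) (fun k => hterm k x hx) hgeo
  have hsum_q : ∀ x : ℝ, |x| ≤ ρ → Summable fun k => ‖qq u k * x ^ k‖ := by
    intro x hx
    exact Summable.of_nonneg_of_le (fun _ => norm_nonneg _) (fun k => hqterm k x hx) hgeo2
  set f : ℝ → ℝ := fun x => ∑' k, u k * x ^ k with hf
  -- smoothness of f
  let p : FormalMultilinearSeries ℝ ℝ ℝ := FormalMultilinearSeries.ofScalars ℝ u
  let ρ' : ℝ≥0 := ⟨ρ, hρpos.le⟩
  have hrad : (ρ' : ℝ≥0∞) ≤ p.radius := by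
    apply p.le_radius_of_bound 1
    intro n
    have h1 : ‖p n‖ = |u n| := by
      simp only [p]
      rw [FormalMultilinearSeries.ofScalars_norm, Real.norm_eq_abs]
    rw [h1]
    have h2 := hterm n ρ (by rw [abs_of_pos hρpos])
    rw [abs_mul, abs_of_nonneg (pow_nonneg hρpos.le n)] at h2
    refine h2.trans ?_
    exact pow_le_one₀ (by norm_num) (by norm_num)
  have hradpos : 0 < p.radius := lt_of_lt_of_le (by
    rw [ENNReal.coe_pos]; exact hρpos) hrad
  have hp := p.hasFPowerSeriesOnBall hradpos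
  have hpsum : p.sum = f := by
    funext x
    simp only [p, hf]
    have := FormalMultilinearSeries.ofScalars_sum_eq (E := ℝ) u x
    unfold FormalMultilinearSeries.ofScalarsSum at this
    rw [this]
    simp
  rw [hpsum] at hp
  have hball : Ioo (-ρ) ρ ⊆ Metric.eball (0 : ℝ) p.radius := by
    intro x hx
    rw [Metric.mem_eball, edist_dist, dist_zero_right, Real.norm_eq_abs]
    refine lt_of_lt_of_le ?_ hrad
    rw [ENNReal.ofReal_lt_coe_iff (abs_nonneg x)]
    exact abs_lt.mpr hx
  have hcd : ContDiffOn ℝ ∞ f (Ioo (-ρ) ρ) := by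
    have h1 : AnalyticOnNhd ℝ f (Metric.eball (0 : ℝ) p.radius) := hp.analyticOnNhd
    exact (h1.mono hball).contDiffOn (uniqueDiffOn_Ioo _ _)
  refine ⟨ρ, hρpos, f, hcd, ?_, ?_⟩
  · simp only [hf]
    rw [tsum_eq_single 0 (fun k hk => by simp [hk])]
    simp [h0]
  · intro x hx
    have hxρ : |x| ≤ ρ := (abs_lt.mpr hx).le
    have hdiff : DifferentiableAt ℝ f x :=
      (hcd.differentiableOn (by simp)).differentiableAt (Ioo_mem_nhds hx.1 hx.2)
    refine ⟨deriv f x, hdiff.hasDerivAt, ?_⟩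
    have hid := sum_identity hM h0 hs (hsum_u x hxρ) (hsum_q x hxρ)
    simp only at hid
    -- derivative of z * f z
    have hder : HasDerivAt (fun z => ∑' k, u k * z ^ (k + 1)) (∑' k, qq u k * x ^ k) x := by
      apply hasDerivAt_tsum_of_isPreconnected (t := Ioo (-ρ) ρ) (y₀ := 0)
        (g := fun k z => u k * z ^ (k + 1)) (g' := fun k z => qq u k * z ^ k)
        hgeo2 isOpen_Ioo isPreconnected_Ioo
      · intro k y hy
        have := ((hasDerivAt_id y).pow (k + 1)).const_mul (u k)
        convert! this using 1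
        simp [qq]; ring
      · intro k y hy
        exact hqterm k y (abs_lt.mpr hy).le
      · exact ⟨by linarith, hρpos⟩
      · simp
      · exact hx
    have hfun : (fun z => ∑' k, u k * z ^ (k + 1)) = fun z => z * f z := by
      funext z
      simp only [hf]
      rw [← tsum_mul_left]
      congr 1
      funext k
      rw [pow_succ]; ring
    rw [hfun] at hder
    have hder2 : HasDerivAt (fun z => z * f z) (1 * f x + x * deriv f x) x :=
      (hasDerivAt_id x).mul hdiff.hasDerivAt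
    have hq := hder.unique hder2
    rw [hq] at hid
    change 2 * M * (1 * f x + x * deriv f x) + M ^ 2 * f x = _ at hid
    linear_combination hid
end Vale.Agent.P252
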