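import Mathlib

namespace Vale.Agent.P252

/-- The algebraic identity behind the equation (AM). -/
theorem pde_identity (m A K t q D : ℝ) (hA : A ≠ 0) (hD0 : D ≠ 0)
    (hD : D = m + 4 * t * A) :
    let c := 1 + 2 * t * K
    let a := 2 * t * A
    let N := m + 2
    let ϖ := -N * (D + 2 * c - 1) / D
    let ct := c * ((m + 3) * A * (D + 2 * c - 1) / D - (m + 2) * A - m * K)
    let ϖt := -N * (2 * ct / D - (2 * c - 1) * (2 * (A * (1 + c - a))) / D ^ 2)
    let ω := A * (ϖ + N * q)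
    let ωt := A * (K - A) * (ϖ + N * q) + A * (ϖt + N * (2 * A * q * (1 - q)))
    (c + a * (1 - q)) * (N + N * (N - 2) * (1 - q)) + 4 * t * N * (1 - q) * (ω - 2 * A * q)
      + (m * c / A) * ω + (c / A) * (2 * t) * (ω ^ 2 + ωt) - (K / A) * (2 * t) * ω
      - (K / A) * (4 * t ^ 2) * (ω ^ 2 + ωt) = 0 := by
  intro c a N ϖ ct ϖt ω ωt
  simp only [c, a, N, ϖ, ct, ϖt, ω, ωt]
  field_simp
  rw [hD]
  ring

end Vale.Agent.P252
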