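import Mathlib

/-!
Structured matrices `[[d, c vᵀ], [c v, a I + b v vᵀ]]`.
-/

open Matrix

namespace Vale.Agent.P252

/-- structured matrix -/
def SM {m : ℕ} (v : Fin m → ℝ) (a b c d : ℝ) : Matrix (Fin (m + 1)) (Fin (m + 1)) ℝ :=
  Matrix.of fun i j => Fin.cases (Fin.cases d (fun j => c * v j) j)
    (fun i => Fin.cases (c * v i) (fun j => (if i = j then a else 0) + b * (v i * v j)) j) i

variable {m : ℕ} (v : Fin m → ℝ) (a b c d : ℝ)

@[simp] lemma SM_zero_zero : SM v a b c d 0 0 = d := rfl
@[simp] lemma SM_zero_succ (j : Fin m) : SM v a b c d 0 j.succ = c * v j := rfl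
@[simp] lemma SM_succ_zero (i : Fin m) : SM v a b c d i.succ 0 = c * v i := rfl
@[simp] lemma SM_succ_succ (i j : Fin m) : SM v a b c d i.succ j.succ =
    (if i = j then a else 0) + b * (v i * v j) := rfl

lemma SM_transpose : (SM v a b c d)ᵀ = SM v a b c d := by
  ext i j
  rw [transpose_apply]
  refine Fin.cases ?_ (fun i => ?_) i <;> refine Fin.cases ?_ (fun j => ?_) j
  · rfl
  · rfl
  · rfl
  · simp only [SM_succ_succ]
    rw [mul_comm (v j)]
    congr 1
    simp only [eq_comm]

/-- Products of structured matrices. -/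
lemma SM_mul (a' b' c' d' : ℝ) (r : ℝ) (hr : ∑ i, v i * v i = r) :
    SM v a b c d * SM v a' b' c' d' = Matrix.of fun i j =>
      Fin.cases (Fin.cases (d * d' + c * c' * r) (fun j => (d * c' + c * (a' + b' * r)) * v j) j)
    (fun i => Fin.cases ((c * d' + (a + b * r) * c') * v i)
      (fun j => (if i = j then a * a' else 0) +
        (a * b' + b * a' + b * b' * r + c * c') * (v i * v j)) j) i := by
  ext i j
  rw [mul_apply, Fin.sum_univ_succ]
  refine Fin.cases ?_ (fun i => ?_) i <;> refine Fin.cases ?_ (fun j => ?_) j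
  · simp only [SM_zero_zero, SM_zero_succ, SM_succ_zero, of_apply, Fin.cases_zero]
    rw [← hr, Finset.mul_sum]
    congr 1
    apply Finset.sum_congr rfl
    intro i _; ring
  · simp only [SM_zero_zero, SM_zero_succ, SM_succ_succ, of_apply, Fin.cases_zero,
      Fin.cases_succ]
    simp only [mul_add, Finset.sum_add_distrib, mul_ite, mul_zero, Finset.sum_ite_eq',
      Finset.mem_univ, if_true]
    rw [← hr]
    simp only [Finset.mul_sum, add_mul, Finset.sum_mul]
    congr 1
    · ring
    · congr 1
      · ring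
      · apply Finset.sum_congr rfl
        intro i _; ring
  · simp only [SM_succ_zero, SM_zero_zero, SM_succ_succ, of_apply, Fin.cases_zero,
      Fin.cases_succ]
    simp only [add_mul, Finset.sum_add_distrib, ite_mul, zero_mul, Finset.sum_ite_eq,
      Finset.mem_univ, if_true]
    rw [← hr]
    simp only [Finset.mul_sum, Finset.sum_mul]
    congr 1
    · ring
    · congr 1
      · ring
      · apply Finset.sum_congr rfl
        intro i _; ring
  · simp only [SM_succ_zero, SM_zero_succ, SM_succ_succ, of_apply,
      Fin.cases_succ]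
    simp only [add_mul, mul_add, Finset.sum_add_distrib, ite_mul, mul_ite, zero_mul, mul_zero,
      Finset.sum_ite_eq, Finset.sum_ite_eq', Finset.mem_univ, if_true]
    rw [← hr]
    have h1 : ∑ x, b * (v i * v x) * (b' * (v x * v j)) =
        b * b' * (∑ x, v x * v x) * (v i * v j) := by
      rw [Finset.mul_sum, Finset.sum_mul]
      apply Finset.sum_congr rfl
      intro x _; ring
    rw [h1]
    have h2 : (∑ x : Fin m, if x = j then (if i = x then a else 0) * a' else 0) =
        if i = j then a * a' else 0 := by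
      rw [Finset.sum_ite_eq' Finset.univ j]
      simp
    have h3 : (∑ x : Fin m, if x = j then (if i = x then a * a' else 0) else 0) =
        if i = j then a * a' else 0 := by
      rw [Finset.sum_ite_eq' Finset.univ j]
      simp
    ring

/-- determinant -/
lemma SM_det (hm : 1 ≤ m) (r : ℝ) (hr : ∑ i, v i * v i = r) (ha : a ≠ 0) (hd : d ≠ 0) :
    (SM v a b c d).det = a ^ (m - 1) * ((a + b * r) * d - c ^ 2 * r) := by
  -- eliminate the first column
  let B : Matrix (Fin (m + 1)) (Fin (m + 1)) ℝ := Matrix.of fun i j =>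
    Fin.cases (Fin.cases d (fun j => c * v j) j)
    (fun i => Fin.cases 0 (fun j => (if i = j then a else 0) + (b - c ^ 2 / d) * (v i * v j)) j) i
  have hAB : (SM v a b c d).det = B.det := by
    apply Matrix.det_eq_of_forall_row_eq_smul_add_const
      (fun i => Fin.cases 0 (fun i => c * v i / d) i) 0 rfl
    intro i j
    refine Fin.cases ?_ (fun i => ?_) i <;> refine Fin.cases ?_ (fun j => ?_) j
    · simp [B]
    · simp [B]
    · simp [B]
      field_simp
    · simp [B]
      field_simp
      ring
  rw [hAB, Matrix.det_succ_column_zero, Fin.sum_univ_succ]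
  have h0 : B 0 0 = d := rfl
  have hs : ∀ i : Fin m, B i.succ 0 = 0 := fun i => rfl
  simp only [hs, h0, mul_zero, zero_mul, Finset.sum_const_zero, add_zero, Fin.val_zero, pow_zero,
    one_mul, Fin.succAbove_zero]
  have hsub : B.submatrix Fin.succ Fin.succ = a • (1 + replicateCol Unit
      (fun i => (b - c ^ 2 / d) / a * v i) * replicateRow Unit v) := by
    ext i j
    simp only [submatrix_apply, Matrix.smul_apply, Matrix.add_apply, mul_apply, replicateCol_apply,
      replicateRow_apply, Finset.univ_unique, Finset.sum_const, Finset.card_singleton, one_smul,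
      smul_eq_mul, one_apply]
    change (if i = j then a else 0) + (b - c ^ 2 / d) * (v i * v j) = _
    split_ifs <;> field_simp <;> ring
  rw [hsub, Matrix.det_smul, Matrix.det_one_add_replicateCol_mul_replicateRow, Fintype.card_fin]
  have hdot : v ⬝ᵥ (fun i => (b - c ^ 2 / d) / a * v i) = (b - c ^ 2 / d) / a * r := by
    rw [← hr, dotProduct, Finset.mul_sum]
    apply Finset.sum_congr rfl
    intro i _; ring
  rw [hdot]
  obtain ⟨k, rfl⟩ : ∃ k, m = k + 1 := ⟨m - 1, by omega⟩
  rw [Nat.add_sub_cancel, pow_succ]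
  field_simp
  ring

/-- inverse -/
lemma SM_inv (r D : ℝ) (hr : ∑ i, v i * v i = r) (hD : (a + b * r) * d - c ^ 2 * r = D)
    (ha : a ≠ 0) (hD0 : D ≠ 0) :
    (SM v a b c d)⁻¹ = SM v (1 / a) ((c ^ 2 - b * d) / (a * D)) (-c / D) ((a + b * r) / D) := by
  apply Matrix.inv_eq_right_inv
  rw [SM_mul v a b c d _ _ _ _ r hr]
  ext i j
  refine Fin.cases ?_ (fun i => ?_) i <;> refine Fin.cases ?_ (fun j => ?_) j
  · simp only [of_apply, Fin.cases_zero, one_apply_eq]
    field_simp
    linear_combination hD
  · simp only [of_apply, Fin.cases_zero, Fin.cases_succ]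
    rw [one_apply_ne (Fin.succ_ne_zero j).symm]
    field_simp
    have : d * -(c * a) * v j + c * (D + (c ^ 2 - b * d) * r) * v j = 0 := by
      rw [← hD]; ring
    linear_combination this
  · simp only [of_apply, Fin.cases_zero, Fin.cases_succ]
    rw [one_apply_ne (Fin.succ_ne_zero i)]
    field_simp
    ring
  · simp only [of_apply, Fin.cases_succ]
    rw [one_apply]
    simp only [Fin.succ_inj]
    have h1 : a * ((c ^ 2 - b * d) / (a * D)) + b * (1 / a) +
        b * ((c ^ 2 - b * d) / (a * D)) * r + c * (-c / D) = 0 := by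
      field_simp
      rw [← hD]; ring
    rw [h1, zero_mul, add_zero, mul_one_div_cancel ha]

/-- trace pairing -/
lemma SM_pair (a' b' c' d' : ℝ) (r : ℝ) (hr : ∑ i, v i * v i = r) :
    ∑ i, ∑ j, SM v a b c d i j * SM v a' b' c' d' i j =
      d * d' + 2 * (c * c' * r) + (m * (a * a') + (a * b' + b * a') * r + b * b' * r ^ 2) := by
  have h1 : ∑ i, ∑ j, SM v a b c d i j * SM v a' b' c' d' i j =
      ((SM v a b c d) * (SM v a' b' c' d')).trace := by
    rw [Matrix.trace]
    simp only [diag_apply, mul_apply]
    apply Finset.sum_congr rfl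
    intro i _
    apply Finset.sum_congr rfl
    intro j _
    congr 1
    conv_lhs => rw [← SM_transpose]
    rfl
  rw [h1, SM_mul v a b c d _ _ _ _ r hr, Matrix.trace, Fin.sum_univ_succ]
  simp only [diag_apply, of_apply, Fin.cases_zero, Fin.cases_succ, if_true]
  rw [Finset.sum_add_distrib, Finset.sum_const, Finset.card_univ,
    Fintype.card_fin, nsmul_eq_mul, ← Finset.mul_sum, hr]
  ring

end Vale.Agent.P252
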