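import Mathlib
import Vale.Agent.P252.Defs
import Vale.Agent.P252.Struct

/-!
Hessians of functions of `(|x'|²/2, x₀)`.
-/

open scoped ContDiff Topology
open Set Filter

namespace Vale.Agent.P252

/-- The linear form `(τ, η) ↦ a τ + b η`. -/
noncomputable def lin2 (a b : ℝ) : ℝ × ℝ →L[ℝ] ℝ :=
  a • ContinuousLinearMap.fst ℝ ℝ ℝ + b • ContinuousLinearMap.snd ℝ ℝ ℝ

@[simp] lemma lin2_apply (a b : ℝ) (p : ℝ × ℝ) : lin2 a b p = a * p.1 + b * p.2 := by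
  simp [lin2]

lemma lin2_eq (L : ℝ × ℝ →L[ℝ] ℝ) (a b : ℝ) (ha : L (1, 0) = a) (hb : L (0, 1) = b) :
    L = lin2 a b := by
  apply ContinuousLinearMap.ext
  rintro ⟨p, q⟩
  have h : ((p, q) : ℝ × ℝ) = p • (1, 0) + q • (0, 1) := by simp
  rw [h, map_add, map_smul, map_smul, ha, hb]
  simp [mul_comm]

variable {m : ℕ}

/-- `t(x) = |x'|²/2` -/
noncomputable def tt (x : Rn (m + 1)) : ℝ := (∑ i : Fin m, x i.succ ^ 2) / 2

lemma tt_nonneg (x : Rn (m + 1)) : 0 ≤ tt x := by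
  unfold tt; positivity

lemma tt_sum (x : Rn (m + 1)) : ∑ i : Fin m, x i.succ * x i.succ = 2 * tt x := by
  unfold tt
  rw [mul_div_cancel₀ _ two_ne_zero]
  apply Finset.sum_congr rfl
  intro i _; ring

noncomputable def Tlin (x : Rn (m + 1)) : Rn (m + 1) →L[ℝ] ℝ :=
  ∑ i : Fin m, x i.succ • (EuclideanSpace.proj i.succ : Rn (m + 1) →L[ℝ] ℝ)

lemma hasFDerivAt_coord (i : Fin (m + 1)) (x : Rn (m + 1)) :
    HasFDerivAt (fun x : Rn (m + 1) => x i) (EuclideanSpace.proj i : Rn (m + 1) →L[ℝ] ℝ) x :=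
  (EuclideanSpace.proj i : Rn (m + 1) →L[ℝ] ℝ).hasFDerivAt

lemma hasFDerivAt_tt (x : Rn (m + 1)) : HasFDerivAt (tt : Rn (m + 1) → ℝ) (Tlin x) x := by
  have h1 : HasFDerivAt (fun x : Rn (m + 1) => ∑ i : Fin m, x i.succ ^ 2)
      (∑ i : Fin m, (2 * x i.succ) • (EuclideanSpace.proj i.succ : Rn (m + 1) →L[ℝ] ℝ)) x := by
    apply HasFDerivAt.fun_sum
    intro i _
    have := (hasFDerivAt_coord i.succ x).pow 2
    convert! this using 1
    simp
  have h2 := h1.mul_const ((1 : ℝ) / 2)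
  have h3 : (tt : Rn (m + 1) → ℝ) = fun x => (∑ i : Fin m, x i.succ ^ 2) * (1 / 2) := by
    funext x; unfold tt; ring
  rw [h3]
  convert! h2 using 1
  unfold Tlin
  rw [Finset.smul_sum]
  apply Finset.sum_congr rfl
  intro i _
  rw [smul_smul]
  congr 1
  ring

lemma hasFDerivAt_T (x : Rn (m + 1)) : HasFDerivAt (fun x : Rn (m + 1) => (tt x, x 0))
    ((Tlin x).prod (EuclideanSpace.proj 0 : Rn (m + 1) →L[ℝ] ℝ)) x :=
  (hasFDerivAt_tt x).prodMk (hasFDerivAt_coord 0 x)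

lemma hasFDerivAt_comp_T {Φ : ℝ × ℝ → ℝ} {a b : ℝ} {x : Rn (m + 1)}
    (h : HasFDerivAt Φ (lin2 a b) (tt x, x 0)) :
    HasFDerivAt (fun x : Rn (m + 1) => Φ (tt x, x 0))
      (a • Tlin x + b • (EuclideanSpace.proj 0 : Rn (m + 1) →L[ℝ] ℝ)) x := by
  have := h.comp x (hasFDerivAt_T x)
  convert! this using 1

lemma Tlin_zero (x : Rn (m + 1)) : Tlin x (EuclideanSpace.single 0 1) = 0 := by
  unfold Tlin
  rw [ContinuousLinearMap.sum_apply]
  apply Finset.sum_eq_zero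
  intro i _
  simp [Fin.succ_ne_zero]

lemma Tlin_succ (x : Rn (m + 1)) (j : Fin m) :
    Tlin x (EuclideanSpace.single j.succ 1) = x j.succ := by
  unfold Tlin
  rw [ContinuousLinearMap.sum_apply, Finset.sum_eq_single j]
  · simp
  · intro i _ hij
    simp [hij]
  · simp

lemma pd_zero_T {Φ : ℝ × ℝ → ℝ} {a b : ℝ} {x : Rn (m + 1)}
    (h : HasFDerivAt Φ (lin2 a b) (tt x, x 0)) :
    pd 0 (fun x : Rn (m + 1) => Φ (tt x, x 0)) x = b := by
  unfold pd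
  rw [(hasFDerivAt_comp_T h).fderiv]
  simp [Tlin_zero]

lemma pd_succ_T {Φ : ℝ × ℝ → ℝ} {a b : ℝ} {x : Rn (m + 1)} (j : Fin m)
    (h : HasFDerivAt Φ (lin2 a b) (tt x, x 0)) :
    pd j.succ (fun x : Rn (m + 1) => Φ (tt x, x 0)) x = a * x j.succ := by
  unfold pd
  rw [(hasFDerivAt_comp_T h).fderiv]
  simp [Tlin_succ]

/-- Hessian of a function of `(t, y)`. -/
theorem hess_radial {Φ Φt Φy Φtt Φty Φyy : ℝ × ℝ → ℝ}
    (h : ∀ p : ℝ × ℝ, 0 ≤ p.1 → HasFDerivAt Φ (lin2 (Φt p) (Φy p)) p)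
    (ht : ∀ p : ℝ × ℝ, 0 ≤ p.1 → HasFDerivAt Φt (lin2 (Φtt p) (Φty p)) p)
    (hy : ∀ p : ℝ × ℝ, 0 ≤ p.1 → HasFDerivAt Φy (lin2 (Φty p) (Φyy p)) p)
    (x : Rn (m + 1)) :
    hess (fun x : Rn (m + 1) => Φ (tt x, x 0)) x =
      SM (fun i : Fin m => x i.succ) (Φt (tt x, x 0)) (Φtt (tt x, x 0)) (Φty (tt x, x 0))
        (Φyy (tt x, x 0)) := by
  have h0 : pd 0 (fun x : Rn (m + 1) => Φ (tt x, x 0)) = fun x => Φy (tt x, x 0) := by
    funext z
    exact pd_zero_T (h _ (tt_nonneg z))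
  have hs : ∀ j : Fin m, pd j.succ (fun x : Rn (m + 1) => Φ (tt x, x 0)) =
      fun x => Φt (tt x, x 0) * x j.succ := by
    intro j
    funext z
    exact pd_succ_T j (h _ (tt_nonneg z))
  have hprod : ∀ j : Fin m, HasFDerivAt (fun x : Rn (m + 1) => Φt (tt x, x 0) * x j.succ)
      (Φt (tt x, x 0) • (EuclideanSpace.proj j.succ : Rn (m + 1) →L[ℝ] ℝ) +
        x j.succ • (Φtt (tt x, x 0) • Tlin x +
          Φty (tt x, x 0) • (EuclideanSpace.proj 0 : Rn (m + 1) →L[ℝ] ℝ))) x := by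
    intro j
    exact (hasFDerivAt_comp_T (ht _ (tt_nonneg x))).mul (hasFDerivAt_coord j.succ x)
  ext i j
  unfold hess
  rw [Matrix.of_apply]
  refine Fin.cases ?_ (fun i => ?_) i <;> refine Fin.cases ?_ (fun j => ?_) j
  · rw [h0, SM_zero_zero]
    exact pd_zero_T (hy _ (tt_nonneg x))
  · rw [hs, SM_zero_succ]
    unfold pd
    rw [(hprod j).fderiv]
    simp [Tlin_zero, Fin.succ_ne_zero]
    ring
  · rw [h0, SM_succ_zero]
    exact pd_succ_T i (hy _ (tt_nonneg x))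
  · rw [hs, SM_succ_succ]
    unfold pd
    rw [(hprod j).fderiv]
    by_cases hij : i = j
    · subst hij
      simp [Tlin_succ, Fin.succ_ne_zero]
      ring
    · have hij' : ¬ j = i := fun h => hij h.symm
      simp [Tlin_succ, Fin.succ_ne_zero, hij, hij']
      ring

end Vale.Agent.P252
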