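import Mathlib
import Vale.Agent.P252.Radial
import Vale.Agent.P252.Identity

/-!
Verification of the affine maximal equation for `√(y² + g(|x'|²/2)²)`.
-/

open scoped ContDiff Topology
open Set Filter

namespace Vale.Agent.P252

/-! ### calculus for functions of two variables -/

lemma D2_of_fst {h : ℝ → ℝ} {h' : ℝ} {p : ℝ × ℝ} (hh : HasDerivAt h h' p.1) :
    HasFDerivAt (fun p : ℝ × ℝ => h p.1) (lin2 h' 0) p := by
  have := hh.comp_hasFDerivAt p (hasFDerivAt_fst (𝕜 := ℝ) (E := ℝ) (F := ℝ) (p := p))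
  convert! this using 1
  symm
  apply lin2_eq <;> simp

lemma D2_snd (p : ℝ × ℝ) : HasFDerivAt (fun p : ℝ × ℝ => p.2) (lin2 0 1) p := by
  have := hasFDerivAt_snd (𝕜 := ℝ) (E := ℝ) (F := ℝ) (p := p)
  convert! this using 1
  symm
  apply lin2_eq <;> simp

lemma D2_const (c : ℝ) (p : ℝ × ℝ) : HasFDerivAt (fun _ : ℝ × ℝ => c) (lin2 0 0) p := by
  have : HasFDerivAt (𝕜 := ℝ) (fun _ : ℝ × ℝ => c) (0 : ℝ × ℝ →L[ℝ] ℝ) p :=
    hasFDerivAt_const c p
  convert! this using 1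
  symm
  apply lin2_eq <;> simp

lemma D2_add {Φ Ψ : ℝ × ℝ → ℝ} {a b a' b' : ℝ} {p : ℝ × ℝ} (h : HasFDerivAt Φ (lin2 a b) p)
    (h' : HasFDerivAt Ψ (lin2 a' b') p) :
    HasFDerivAt (fun p => Φ p + Ψ p) (lin2 (a + a') (b + b')) p := by
  have := h.add h'
  convert! this using 1
  symm
  apply lin2_eq <;> simp

lemma D2_mul {Φ Ψ : ℝ × ℝ → ℝ} {a b a' b' : ℝ} {p : ℝ × ℝ} (h : HasFDerivAt Φ (lin2 a b) p)
    (h' : HasFDerivAt Ψ (lin2 a' b') p) :
    HasFDerivAt (fun p => Φ p * Ψ p) (lin2 (Φ p * a' + Ψ p * a) (Φ p * b' + Ψ p * b)) p := by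
  have := h.mul h'
  convert! this using 1
  symm
  apply lin2_eq <;> simp

lemma D2_comp {Φ : ℝ × ℝ → ℝ} {h : ℝ → ℝ} {h' a b : ℝ} {p : ℝ × ℝ} (hh : HasDerivAt h h' (Φ p))
    (hΦ : HasFDerivAt Φ (lin2 a b) p) :
    HasFDerivAt (fun p => h (Φ p)) (lin2 (h' * a) (h' * b)) p := by
  have := hh.comp_hasFDerivAt p hΦ
  convert! this using 1
  symm
  apply lin2_eq <;> simp

lemma D2_congr {Φ : ℝ × ℝ → ℝ} {a b a' b' : ℝ} {p : ℝ × ℝ} (h : HasFDerivAt Φ (lin2 a b) p)
    (ha : a = a') (hb : b = b') : HasFDerivAt Φ (lin2 a' b') p := by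
  subst ha; subst hb; exact h

/-- The data of the radial solution. -/
structure RadialSol (m : ℕ) (ε : ℝ) (g A K : ℝ → ℝ) : Prop where
  m9 : 9 ≤ m
  εpos : 0 < ε
  gsm : ContDiffOn ℝ ∞ g (Ioi (-ε))
  gpos : ∀ t, -ε < t → 0 < g t
  Apos : ∀ t, -ε < t → 0 < A t
  cpos : ∀ t, -ε < t → 0 < 1 + 2 * t * K t
  dpos : ∀ t, -ε < t → 0 < (m : ℝ) + 4 * t * A t
  dg : ∀ t, -ε < t → HasDerivAt g (g t * A t) t
  dA : ∀ t, -ε < t → HasDerivAt A (A t * (K t - A t)) t
  dc : ∀ t, -ε < t → HasDerivAt (fun t => 1 + 2 * t * K t)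
    ((1 + 2 * t * K t) * (((m : ℝ) + 3) * A t *
      ((m + 4 * t * A t) + 2 * (1 + 2 * t * K t) - 1) / (m + 4 * t * A t)
      - (m + 2) * A t - m * K t)) t

namespace RadialSol

variable {m : ℕ} {ε : ℝ} {g A K : ℝ → ℝ}

/-- `c` -/
noncomputable def C (K : ℝ → ℝ) (t : ℝ) : ℝ := 1 + 2 * t * K t
/-- `m + 2a` -/
noncomputable def DD (m : ℕ) (A : ℝ → ℝ) (t : ℝ) : ℝ := m + 4 * t * A t
/-- derivative of `c` -/
noncomputable def Ct (m : ℕ) (A K : ℝ → ℝ) (t : ℝ) : ℝ :=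
  C K t * (((m : ℝ) + 3) * A t * (DD m A t + 2 * C K t - 1) / DD m A t - (m + 2) * A t - m * K t)
/-- `ϖ` -/
noncomputable def W0 (m : ℕ) (A K : ℝ → ℝ) (t : ℝ) : ℝ :=
  -((m : ℝ) + 2) * (DD m A t + 2 * C K t - 1) / DD m A t
/-- derivative of `ϖ` -/
noncomputable def W1 (m : ℕ) (A K : ℝ → ℝ) (t : ℝ) : ℝ :=
  -((m : ℝ) + 2) * (2 * Ct m A K t / DD m A t -
    (2 * C K t - 1) * (2 * (A t * (1 + C K t - 2 * t * A t))) / DD m A t ^ 2)
/-- `√(y² + g²)` -/
noncomputable def F (g : ℝ → ℝ) (p : ℝ × ℝ) : ℝ := Real.sqrt (p.2 ^ 2 + g p.1 ^ 2)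
/-- `P = (g^{2m+2} A^m c)^{-θ}` -/
noncomputable def P (m : ℕ) (g A K : ℝ → ℝ) (t : ℝ) : ℝ :=
  (g t ^ (2 * m + 2) * A t ^ m * C K t) ^ (-((m : ℝ) + 2) / ((m : ℝ) + 3))

variable (h : RadialSol m ε g A K)
include h

lemma dC {t : ℝ} (ht : -ε < t) : HasDerivAt (C K) (Ct m A K t) t := h.dc t ht

lemma dDD {t : ℝ} (ht : -ε < t) :
    HasDerivAt (DD m A) (2 * (A t * (1 + C K t - 2 * t * A t))) t := by
  have h1 := ((((hasDerivAt_id t).const_mul 4).mul (h.dA t ht)).const_add (m : ℝ))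
  unfold DD
  convert! h1 using 1
  simp only [C, id]
  ring

lemma dW0 {t : ℝ} (ht : -ε < t) : HasDerivAt (W0 m A K) (W1 m A K t) t := by
  have hd := (h.dpos t ht).ne'
  have hd' : DD m A t ≠ 0 := hd
  have h1 := ((((h.dDD ht).add ((h.dC ht).const_mul 2)).sub_const 1).const_mul
    (-((m : ℝ) + 2))).div (h.dDD ht) hd'
  unfold W0
  convert! h1 using 1
  unfold W1
  field_simp
  simp only [Pi.add_apply]
  ring

lemma Cpos {t : ℝ} (ht : -ε < t) : 0 < C K t := h.cpos t ht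
lemma Dpos {t : ℝ} (ht : -ε < t) : 0 < DD m A t := h.dpos t ht

lemma Bpos {t : ℝ} (ht : -ε < t) : 0 < g t ^ (2 * m + 2) * A t ^ m * C K t :=
  mul_pos (mul_pos (pow_pos (h.gpos t ht) _) (pow_pos (h.Apos t ht) _)) (h.Cpos ht)

lemma dP {t : ℝ} (ht : -ε < t) : HasDerivAt (P m g A K) (P m g A K t * (A t * W0 m A K t)) t := by
  have hm := h.m9
  have hm0 : m ≠ 0 := by omega
  have hg := h.gpos t ht
  have hA := h.Apos t ht
  have hC := h.Cpos ht
  have hD := h.Dpos ht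
  have hB := h.Bpos ht
  have hBd : HasDerivAt (fun t => g t ^ (2 * m + 2) * A t ^ m * C K t)
      (g t ^ (2 * m + 2) * A t ^ m * C K t *
        (((m : ℝ) + 3) * A t * (DD m A t + 2 * C K t - 1) / DD m A t)) t := by
    have h1 := (((h.dg t ht).pow (2 * m + 2)).mul ((h.dA t ht).pow m)).mul (h.dC ht)
    convert! h1 using 1
    have e1 : g t ^ (2 * m + 2 - 1) * g t = g t ^ (2 * m + 2) := by
      rw [← pow_succ]; congr 1
    have e2 : A t ^ (m - 1) * A t = A t ^ m := by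
      rw [← pow_succ]; congr 1; omega
    simp only [Pi.mul_apply, Pi.pow_apply]
    have e3 : ((2 * m + 2 : ℕ) : ℝ) * g t ^ (2 * m + 2 - 1) * (g t * A t) =
        ((2 * m + 2 : ℕ) : ℝ) * A t * g t ^ (2 * m + 2) := by
      rw [← e1]; ring
    have e4 : (m : ℝ) * A t ^ (m - 1) * (A t * (K t - A t)) = m * (K t - A t) * A t ^ m := by
      rw [← e2]; ring
    rw [e3, e4]
    unfold Ct
    push_cast
    ring
  have h2 := hBd.rpow_const (p := -((m : ℝ) + 2) / ((m : ℝ) + 3)) (Or.inl hB.ne')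
  unfold P
  convert! h2 using 1
  rw [Real.rpow_sub_one hB.ne']
  unfold W0
  have hm3 : (m : ℝ) + 3 ≠ 0 := by positivity
  field_simp

lemma Fpos {p : ℝ × ℝ} (hp : -ε < p.1) : 0 < F g p := by
  unfold F
  apply Real.sqrt_pos.mpr
  have := h.gpos _ hp
  positivity

omit h in
lemma Fsq (p : ℝ × ℝ) : F g p ^ 2 = p.2 ^ 2 + g p.1 ^ 2 := by
  unfold F
  exact Real.sq_sqrt (by positivity)

lemma dF {p : ℝ × ℝ} (hp : -ε < p.1) :
    HasFDerivAt (F g) (lin2 (g p.1 ^ 2 * A p.1 / F g p) (p.2 / F g p)) p := by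
  have hg := D2_of_fst (h.dg _ hp)
  have h1 := D2_add (D2_mul (D2_snd p) (D2_snd p)) (D2_mul hg hg)
  have hpos : 0 < p.2 * p.2 + g p.1 * g p.1 := by
    have := h.gpos _ hp
    nlinarith [mul_self_nonneg p.2, mul_pos this this]
  have h2 := D2_comp (h := Real.sqrt) (Real.hasDerivAt_sqrt hpos.ne') h1
  have hFF : (fun p : ℝ × ℝ => Real.sqrt (p.2 * p.2 + g p.1 * g p.1)) = F g := by
    funext p; unfold F; congr 1; ring
  rw [hFF] at h2
  have hval : Real.sqrt (p.2 * p.2 + g p.1 * g p.1) = F g p := by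
    rw [← hFF]
  rw [hval] at h2
  have hF := (h.Fpos hp).ne'
  refine D2_congr h2 ?_ ?_
  · field_simp
    ring
  · field_simp
    ring

/-- derivative of `1 / F` -/
lemma dFinv {p : ℝ × ℝ} (hp : -ε < p.1) :
    HasFDerivAt (fun p => (F g p)⁻¹)
      (lin2 (-(g p.1 ^ 2 * A p.1) / F g p ^ 3) (-p.2 / F g p ^ 3)) p := by
  have hF := (h.Fpos hp).ne'
  have h1 := D2_comp (hasDerivAt_inv hF) (h.dF hp)
  refine D2_congr h1 ?_ ?_
  · field_simp
  · field_simp

/-- `Φt` -/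
noncomputable def Ft (g A : ℝ → ℝ) (p : ℝ × ℝ) : ℝ := g p.1 ^ 2 * A p.1 * (F g p)⁻¹
/-- `Φy` -/
noncomputable def Fy (g : ℝ → ℝ) (p : ℝ × ℝ) : ℝ := p.2 * (F g p)⁻¹
/-- `Φtt` -/
noncomputable def Ftt (g A K : ℝ → ℝ) (p : ℝ × ℝ) : ℝ :=
  g p.1 ^ 2 * A p.1 * ((A p.1 + K p.1) / F g p - g p.1 ^ 2 * A p.1 / F g p ^ 3)
/-- `Φty` -/
noncomputable def Fty (g A : ℝ → ℝ) (p : ℝ × ℝ) : ℝ := -(g p.1 ^ 2 * A p.1 * p.2) / F g p ^ 3
/-- `Φyy` -/
noncomputable def Fyy (g : ℝ → ℝ) (p : ℝ × ℝ) : ℝ := g p.1 ^ 2 / F g p ^ 3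


lemma dF' {p : ℝ × ℝ} (hp : -ε < p.1) :
    HasFDerivAt (F g) (lin2 (Ft g A p) (Fy g p)) p :=
  D2_congr (h.dF hp) (by unfold Ft; ring) (by unfold Fy; ring)

lemma dFt {p : ℝ × ℝ} (hp : -ε < p.1) :
    HasFDerivAt (Ft g A) (lin2 (Ftt g A K p) (Fty g A p)) p := by
  have hg := D2_of_fst (h.dg _ hp)
  have hA := D2_of_fst (h.dA _ hp)
  have hF := (h.Fpos hp).ne'
  have h1 := D2_mul (D2_mul (D2_mul hg hg) hA) (h.dFinv hp)
  have hfun : (fun p : ℝ × ℝ => g p.1 * g p.1 * A p.1 * (F g p)⁻¹) = Ft g A := by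
    funext p; unfold Ft; ring
  rw [hfun] at h1
  refine D2_congr h1 ?_ ?_
  · unfold Ftt
    field_simp
    ring
  · unfold Fty
    field_simp
    ring

lemma dFy {p : ℝ × ℝ} (hp : -ε < p.1) :
    HasFDerivAt (Fy g) (lin2 (Fty g A p) (Fyy g p)) p := by
  have hF := (h.Fpos hp).ne'
  have hsq := Fsq (g := g) p
  have h1 := D2_mul (D2_snd p) (h.dFinv hp)
  refine D2_congr h1 ?_ ?_
  · unfold Fty
    field_simp
    ring
  · unfold Fyy
    field_simp
    linear_combination hsq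

/-- `ω = A (ϖ + N g²/F²)` -/
noncomputable def Om (m : ℕ) (g A K : ℝ → ℝ) (p : ℝ × ℝ) : ℝ :=
  A p.1 * (W0 m A K p.1 + (m + 2) * (g p.1 ^ 2 / F g p ^ 2))
/-- `∂_t ω` -/
noncomputable def Omt (m : ℕ) (g A K : ℝ → ℝ) (p : ℝ × ℝ) : ℝ :=
  A p.1 * (K p.1 - A p.1) * (W0 m A K p.1 + (m + 2) * (g p.1 ^ 2 / F g p ^ 2)) +
  A p.1 * (W1 m A K p.1 + (m + 2) * (2 * A p.1 * (g p.1 ^ 2 / F g p ^ 2) *
    (1 - g p.1 ^ 2 / F g p ^ 2)))
/-- `∂_y ω` -/
noncomputable def Omy (m : ℕ) (g A : ℝ → ℝ) (p : ℝ × ℝ) : ℝ :=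
  -(A p.1 * (m + 2) * (2 * g p.1 ^ 2 * p.2 / F g p ^ 4))

lemma dOm {p : ℝ × ℝ} (hp : -ε < p.1) :
    HasFDerivAt (Om m g A K) (lin2 (Omt m g A K p) (Omy m g A p)) p := by
  have hg := D2_of_fst (h.dg _ hp)
  have hA := D2_of_fst (h.dA _ hp)
  have hW := D2_of_fst (h.dW0 hp)
  have hF := (h.Fpos hp).ne'
  have hsq := Fsq (g := g) p
  have hq := D2_mul (D2_mul hg (h.dFinv hp)) (D2_mul hg (h.dFinv hp))
  have hc := D2_const ((m : ℝ) + 2) p
  have h1 := D2_mul hA (D2_add hW (D2_mul hc hq))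
  have hfun : (fun p : ℝ × ℝ => A p.1 * (W0 m A K p.1 + ((m : ℝ) + 2) *
      (g p.1 * (F g p)⁻¹ * (g p.1 * (F g p)⁻¹)))) = Om m g A K := by
    funext p
    unfold Om
    congr 3
    rw [div_eq_mul_inv, ← inv_pow]
    ring
  rw [hfun] at h1
  refine D2_congr h1 ?_ ?_
  · unfold Omt
    field_simp
    ring
  · unfold Omy
    field_simp
    ring

/-- `Ψ = P F^{m+2}` -/
noncomputable def Ps (m : ℕ) (g A K : ℝ → ℝ) (p : ℝ × ℝ) : ℝ := P m g A K p.1 * F g p ^ (m + 2)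
noncomputable def Pst (m : ℕ) (g A K : ℝ → ℝ) (p : ℝ × ℝ) : ℝ := Ps m g A K p * Om m g A K p
noncomputable def Psy (m : ℕ) (g A K : ℝ → ℝ) (p : ℝ × ℝ) : ℝ :=
  Ps m g A K p * ((m + 2) * p.2 / F g p ^ 2)
noncomputable def Pstt (m : ℕ) (g A K : ℝ → ℝ) (p : ℝ × ℝ) : ℝ :=
  Ps m g A K p * (Om m g A K p ^ 2 + Omt m g A K p)
noncomputable def Psty (m : ℕ) (g A K : ℝ → ℝ) (p : ℝ × ℝ) : ℝ :=
  Ps m g A K p * ((m + 2) * p.2 / F g p ^ 2 * Om m g A K p + Omy m g A p)
noncomputable def Psyy (m : ℕ) (g A K : ℝ → ℝ) (p : ℝ × ℝ) : ℝ :=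
  Ps m g A K p * ((m + 2) / F g p ^ 2 + (m + 2) * m * p.2 ^ 2 / F g p ^ 4)

lemma dPs {p : ℝ × ℝ} (hp : -ε < p.1) :
    HasFDerivAt (Ps m g A K) (lin2 (Pst m g A K p) (Psy m g A K p)) p := by
  have hP := D2_of_fst (h.dP hp)
  have hF := (h.Fpos hp).ne'
  have hpow := D2_comp (h := fun x : ℝ => x ^ (m + 2)) (hasDerivAt_pow (m + 2) (F g p)) (h.dF hp)
  have h1 := D2_mul hP hpow
  have e1 : F g p ^ (m + 2) = F g p ^ (m + 2 - 1) * F g p := by
    rw [← pow_succ]; congr 1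
  refine D2_congr h1 ?_ ?_
  · unfold Pst Ps Om
    rw [e1]
    push_cast
    field_simp
    ring
  · unfold Psy Ps
    rw [e1]
    push_cast
    field_simp
    ring

lemma dPst {p : ℝ × ℝ} (hp : -ε < p.1) :
    HasFDerivAt (Pst m g A K) (lin2 (Pstt m g A K p) (Psty m g A K p)) p := by
  have h1 := D2_mul (h.dPs hp) (h.dOm hp)
  refine D2_congr h1 ?_ ?_
  · unfold Pstt Pst; ring
  · unfold Psty Psy; ring

lemma dPsy {p : ℝ × ℝ} (hp : -ε < p.1) :
    HasFDerivAt (Psy m g A K) (lin2 (Psty m g A K p) (Psyy m g A K p)) p := by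
  have hF := (h.Fpos hp).ne'
  have hsq := Fsq (g := g) p
  have hc := D2_const ((m : ℝ) + 2) p
  have h1 := D2_mul (h.dPs hp) (D2_mul (D2_mul hc (D2_snd p))
    (D2_mul (h.dFinv hp) (h.dFinv hp)))
  have hfun : (fun p : ℝ × ℝ => Ps m g A K p * (((m : ℝ) + 2) * p.2 *
      ((F g p)⁻¹ * (F g p)⁻¹))) = Psy m g A K := by
    funext p
    unfold Psy
    rw [div_eq_mul_inv, ← inv_pow]
    ring
  rw [hfun] at h1
  refine D2_congr h1 ?_ ?_
  · unfold Psty Pst Om Omy
    field_simp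
    ring
  · unfold Psyy Psy
    field_simp
    ring

/-! ### the function `u` -/

/-- The solution. -/
noncomputable def U (m : ℕ) (g : ℝ → ℝ) (x : Rn (m + 1)) : ℝ := F g (tt x, x 0)

lemma hess_U (x : Rn (m + 1)) : hess (U m g) x =
    SM (fun i : Fin m => x i.succ) (Ft g A (tt x, x 0)) (Ftt g A K (tt x, x 0))
      (Fty g A (tt x, x 0)) (Fyy g (tt x, x 0)) := by
  have hε := h.εpos
  exact hess_radial (Φ := F g) (fun p hp => h.dF' (by linarith)) (fun p hp => h.dFt (by linarith))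
    (fun p hp => h.dFy (by linarith)) x

lemma detred {p : ℝ × ℝ} (hp : -ε < p.1) :
    (Ft g A p + Ftt g A K p * (2 * p.1)) * Fyy g p - Fty g A p ^ 2 * (2 * p.1) =
      g p.1 ^ 4 * A p.1 * C K p.1 / F g p ^ 4 := by
  have hF := (h.Fpos hp).ne'
  have hsq := Fsq (g := g) p
  unfold Ft Ftt Fty Fyy C
  field_simp
  have hy : p.2 ^ 2 = F g p ^ 2 - g p.1 ^ 2 := by linarith
  rw [hy]; ring

lemma det_U (x : Rn (m + 1)) : (hess (U m g) x).det =
    g (tt x) ^ (2 * m + 2) * A (tt x) ^ m * C K (tt x) / F g (tt x, x 0) ^ (m + 3) := by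
  have hε := h.εpos
  have hp : -ε < (tt x, x 0).1 := by
    have := tt_nonneg x
    simp only; linarith
  have hF := (h.Fpos hp).ne'
  have hg := h.gpos _ hp
  have hA := h.Apos _ hp
  have hm := h.m9
  rw [h.hess_U, SM_det _ _ _ _ _ (by omega) (2 * tt x) (tt_sum x), h.detred hp]
  · unfold Ft
    obtain ⟨k, rfl⟩ : ∃ k, m = k + 1 := ⟨m - 1, by omega⟩
    simp only [Nat.add_sub_cancel]
    rw [mul_pow, mul_pow, inv_pow]
    field_simp
    ring
  · unfold Ft
    have := h.Fpos hp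
    positivity
  · unfold Fyy
    have := h.Fpos hp
    simp only at hg ⊢
    positivity


lemma affW_U (x : Rn (m + 1)) : affW (U m g) x = Ps m g A K (tt x, x 0) := by
  have hε := h.εpos
  have hp : -ε < (tt x, x 0).1 := by
    have := tt_nonneg x
    simp only; linarith
  have hF := h.Fpos hp
  have hB := h.Bpos hp
  simp only at hB
  unfold affW
  rw [h.det_U, Real.div_rpow hB.le (by positivity)]
  have he : (-((m + 1 : ℕ) : ℝ) - 1) = -((m : ℝ) + 2) := by push_cast; ring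
  have he1 : (-(((m + 1 : ℕ) : ℝ) + 1) / (((m + 1 : ℕ) : ℝ) + 2)) =
      -((m : ℝ) + 2) / ((m : ℝ) + 3) := by push_cast; ring
  rw [he1]
  unfold Ps P
  simp only
  rw [div_eq_mul_inv]
  congr 1
  rw [← Real.rpow_natCast (F g (tt x, x 0)) (m + 3), ← Real.rpow_mul hF.le,
    ← Real.rpow_neg hF.le, ← Real.rpow_natCast (F g (tt x, x 0)) (m + 2)]
  congr 1
  push_cast
  field_simp

lemma hess_affW (x : Rn (m + 1)) : hess (affW (U m g)) x =
    SM (fun i : Fin m => x i.succ) (Pst m g A K (tt x, x 0)) (Pstt m g A K (tt x, x 0))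
      (Psty m g A K (tt x, x 0)) (Psyy m g A K (tt x, x 0)) := by
  have hε := h.εpos
  have hfun : affW (U m g) = fun x : Rn (m + 1) => Ps m g A K (tt x, x 0) := by
    funext x; exact h.affW_U x
  rw [hfun]
  exact hess_radial (Φ := Ps m g A K) (fun p hp => h.dPs (by linarith))
    (fun p hp => h.dPst (by linarith)) (fun p hp => h.dPsy (by linarith)) x

lemma inv_U (x : Rn (m + 1)) : (hess (U m g) x)⁻¹ =
    SM (fun i : Fin m => x i.succ)
      (F g (tt x, x 0) / (g (tt x) ^ 2 * A (tt x)))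
      (-(K (tt x) * F g (tt x, x 0)) / (g (tt x) ^ 2 * A (tt x) * C K (tt x)))
      (x 0 * F g (tt x, x 0) / (g (tt x) ^ 2 * C K (tt x)))
      (F g (tt x, x 0) * (C K (tt x) * F g (tt x, x 0) ^ 2 + 2 * tt x * A (tt x) * x 0 ^ 2) /
        (g (tt x) ^ 2 * C K (tt x))) := by
  have hε := h.εpos
  have hp : -ε < (tt x, x 0).1 := by
    have := tt_nonneg x
    simp only; linarith
  have hF := h.Fpos hp
  have hg := h.gpos _ hp
  have hA := h.Apos _ hp
  have hC := h.Cpos hp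
  simp only at hg hA hC
  have hdr := h.detred hp
  simp only at hdr
  have hsq := Fsq (g := g) (tt x, x 0)
  simp only at hsq
  rw [h.hess_U, SM_inv _ _ _ _ _ (2 * tt x) _ (tt_sum x) hdr]
  · have hy : x 0 ^ 2 = F g (tt x, x 0) ^ 2 - g (tt x) ^ 2 := by linarith
    congr 1
    · unfold Ft
      field_simp
    · unfold Ft Ftt Fty Fyy
      simp only
      field_simp
      rw [hy]
      ring
    · unfold Fty
      simp only
      field_simp
    · unfold Ft Ftt
      simp only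
      field_simp
      rw [hy]
      unfold C
      ring
  · unfold Ft
    simp only
    positivity
  · positivity

/-- The affine maximal equation. -/
theorem affineMaximal : AffineMaximalOn univ (U m g) := by
  intro x _
  have hε := h.εpos
  have hp : -ε < (tt x, x 0).1 := by
    have := tt_nonneg x
    simp only; linarith
  have hF := h.Fpos hp
  have hg := h.gpos _ hp
  have hA := h.Apos _ hp
  have hC := h.Cpos hp
  have hD := h.Dpos hp
  simp only at hg hA hC hD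
  have hsq := Fsq (g := g) (tt x, x 0)
  simp only at hsq
  unfold cofU
  simp only [Matrix.smul_apply, smul_eq_mul, mul_assoc]
  simp_rw [← Finset.mul_sum]
  apply mul_eq_zero_of_right
  rw [h.inv_U, h.hess_affW, SM_pair _ _ _ _ _ _ _ _ _ (2 * tt x) (tt_sum x)]
  set t := tt x with ht
  set y := x 0 with hy
  set f := F g (t, y) with hf
  set q := g t ^ 2 / f ^ 2 with hq
  have hid := pde_identity (m : ℝ) (A t) (K t) t q (DD m A t) hA.ne' hD.ne' rfl
  simp only at hid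
  have hW1 : -((m : ℝ) + 2) * (2 * ((1 + 2 * t * K t) * (((m : ℝ) + 3) * A t *
      (DD m A t + 2 * (1 + 2 * t * K t) - 1) / DD m A t - (m + 2) * A t - m * K t)) / DD m A t -
      (2 * (1 + 2 * t * K t) - 1) * (2 * (A t * (1 + (1 + 2 * t * K t) - 2 * t * A t))) /
      DD m A t ^ 2) = W1 m A K t := rfl
  have hW0 : -((m : ℝ) + 2) * (DD m A t + 2 * (1 + 2 * t * K t) - 1) / DD m A t = W0 m A K t := rfl
  rw [hW1, hW0] at hid
  have hOm : Om m g A K (t, y) = A t * (W0 m A K t + (m + 2) * q) := rfl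
  have hOmt : Omt m g A K (t, y) = A t * (K t - A t) * (W0 m A K t + (m + 2) * q) +
    A t * (W1 m A K t + (m + 2) * (2 * A t * q * (1 - q))) := rfl
  rw [← hOm, ← hOmt] at hid
  have hc : (1 : ℝ) + 2 * t * K t = C K t := rfl
  rw [hc] at hid
  have h1q : 1 - q = y ^ 2 / f ^ 2 := by
    rw [hq, eq_div_iff (by positivity)]
    field_simp
    linarith
  have hOmy : Omy m g A (t, y) = -(A t * (m + 2) * 2 * q * (y / f ^ 2)) := by
    unfold Omy
    simp only
    rw [← hf, hq]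
    field_simp
  unfold Pst Pstt Psty Psyy
  rw [hOmy]
  simp only
  rw [← hf]
  set Ω := Om m g A K (t, y) with hΩ
  set Ωt := Omt m g A K (t, y) with hΩt
  set S := Ps m g A K (t, y) with hS
  have hfin : f * (C K t * f ^ 2 + 2 * t * A t * y ^ 2) / (g t ^ 2 * C K t) *
      (S * ((m + 2) / f ^ 2 + (m + 2) * m * y ^ 2 / f ^ 4)) +
      2 * (y * f / (g t ^ 2 * C K t) *
        (S * ((m + 2) * y / f ^ 2 * Ω + -(A t * (m + 2) * 2 * q * (y / f ^ 2)))) * (2 * t)) +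
      (m * (f / (g t ^ 2 * A t) * (S * Ω)) +
        (f / (g t ^ 2 * A t) * (S * (Ω ^ 2 + Ωt)) +
          -(K t * f) / (g t ^ 2 * A t * C K t) * (S * Ω)) * (2 * t) +
        -(K t * f) / (g t ^ 2 * A t * C K t) * (S * (Ω ^ 2 + Ωt)) * (2 * t) ^ 2) =
      f * S / (g t ^ 2 * C K t) * ((C K t + 2 * t * A t * (1 - q)) *
        ((m + 2) + (m + 2) * (m + 2 - 2) * (1 - q)) +
        4 * t * (m + 2) * (1 - q) * (Ω - 2 * A t * q) +
        m * C K t / A t * Ω + C K t / A t * (2 * t) * (Ω ^ 2 + Ωt) -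
        K t / A t * (2 * t) * Ω - K t / A t * (4 * t ^ 2) * (Ω ^ 2 + Ωt)) := by
    rw [h1q]
    field_simp
    ring
  rw [hfin, hid, mul_zero]

/-- positivity of the Hessian -/
theorem posDef_U (x : Rn (m + 1)) : (hess (U m g) x).PosDef := by
  have hε := h.εpos
  have hp : -ε < (tt x, x 0).1 := by
    have := tt_nonneg x
    simp only; linarith
  have hF := h.Fpos hp
  have hg := h.gpos _ hp
  have hA := h.Apos _ hp
  have hC := h.Cpos hp
  simp only at hg hA hC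
  have hdr := h.detred hp
  simp only at hdr
  rw [h.hess_U]
  set α := Ft g A (tt x, x 0) with hα
  set β := Ftt g A K (tt x, x 0) with hβ
  set γ := Fty g A (tt x, x 0) with hγ
  set δ := Fyy g (tt x, x 0) with hδ
  have hαpos : 0 < α := by rw [hα]; unfold Ft; positivity
  have hδpos : 0 < δ := by rw [hδ]; unfold Fyy; positivity
  have hDpos : 0 < (α + β * (2 * tt x)) * δ - γ ^ 2 * (2 * tt x) := by
    rw [hdr]; positivity
  apply Matrix.PosDef.of_dotProduct_mulVec_pos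
  · have := SM_transpose (fun i : Fin m => x i.succ) α β γ δ
    unfold Matrix.IsHermitian
    rw [Matrix.conjTranspose_eq_transpose_of_trivial]
    exact this
  · intro z hz
    set s := ∑ i : Fin m, x i.succ * z i.succ with hs
    set Z := ∑ i : Fin m, z i.succ ^ 2 with hZ
    have hform : star z ⬝ᵥ (SM (fun i : Fin m => x i.succ) α β γ δ).mulVec z =
        δ * z 0 ^ 2 + 2 * γ * z 0 * s + α * Z + β * s ^ 2 := by
      have hexp : star z ⬝ᵥ (SM (fun i : Fin m => x i.succ) α β γ δ).mulVec z =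
          z 0 * (δ * z 0 + ∑ j : Fin m, γ * x j.succ * z j.succ) +
          ∑ i : Fin m, z i.succ * (γ * x i.succ * z 0 +
            ∑ j : Fin m, ((if i = j then α else 0) + β * (x i.succ * x j.succ)) * z j.succ) := by
        simp only [dotProduct, Matrix.mulVec, Fin.sum_univ_succ, star_trivial, SM_zero_zero,
          SM_zero_succ, SM_succ_zero, SM_succ_succ]
      rw [hexp]
      have e1 : ∑ j : Fin m, γ * x j.succ * z j.succ = γ * s := by
        rw [hs, Finset.mul_sum]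
        apply Finset.sum_congr rfl; intro j _; ring
      have e2 : ∀ i : Fin m, ∑ j : Fin m,
          ((if i = j then α else 0) + β * (x i.succ * x j.succ)) * z j.succ =
          α * z i.succ + β * x i.succ * s := by
        intro i
        simp only [add_mul, Finset.sum_add_distrib, ite_mul, zero_mul, Finset.sum_ite_eq,
          Finset.mem_univ, if_true]
        congr 1
        rw [hs, Finset.mul_sum]
        apply Finset.sum_congr rfl; intro j _; ring
      rw [e1]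
      simp_rw [e2]
      have e3 : ∑ i : Fin m, z i.succ * (γ * x i.succ * z 0 + (α * z i.succ + β * x i.succ * s)) =
          γ * z 0 * s + α * Z + β * s ^ 2 := by
        have : ∀ i : Fin m, z i.succ * (γ * x i.succ * z 0 + (α * z i.succ + β * x i.succ * s)) =
            (γ * z 0) * (x i.succ * z i.succ) + α * z i.succ ^ 2 +
              (β * s) * (x i.succ * z i.succ) := by
          intro i; ring
        simp_rw [this, Finset.sum_add_distrib, ← Finset.mul_sum, ← hs, ← hZ]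
        ring
      rw [e3]
      ring
    rw [hform]
    have hZ0 : 0 ≤ Z := by rw [hZ]; positivity
    have hCS : s ^ 2 ≤ (2 * tt x) * Z := by
      have := Finset.sum_mul_sq_le_sq_mul_sq Finset.univ (fun i : Fin m => x i.succ)
        (fun i : Fin m => z i.succ)
      have h2 : ∑ i : Fin m, x i.succ ^ 2 = 2 * tt x := by
        unfold tt; ring
      rw [h2] at this
      exact this
    by_cases hZz : Z = 0
    · have hzi : ∀ i : Fin m, z i.succ = 0 := by
        intro i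
        have := (Finset.sum_eq_zero_iff_of_nonneg (fun i _ => sq_nonneg (z (Fin.succ i)))).mp hZz i
          (Finset.mem_univ i)
        exact pow_eq_zero_iff (two_ne_zero) |>.mp this
      have hs0 : s = 0 := by
        rw [hs]; apply Finset.sum_eq_zero; intro i _; rw [hzi i, mul_zero]
      have hz0 : z 0 ≠ 0 := by
        intro h0
        apply hz
        funext i
        refine Fin.cases h0 (fun i => hzi i) i
      rw [hs0, hZz]
      have : 0 < z 0 ^ 2 := by positivity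
      nlinarith
    · have hZpos : 0 < Z := lt_of_le_of_ne hZ0 (Ne.symm hZz)
      have key : 0 < α * δ * Z + (β * δ - γ ^ 2) * s ^ 2 := by
        rcases le_or_gt 0 (β * δ - γ ^ 2) with hpos | hneg
        · have : 0 < α * δ * Z := by positivity
          nlinarith [mul_nonneg hpos (sq_nonneg s)]
        · have h1 : (β * δ - γ ^ 2) * ((2 * tt x) * Z) ≤ (β * δ - γ ^ 2) * s ^ 2 :=
            mul_le_mul_of_nonpos_left hCS hneg.le
          nlinarith [mul_pos hDpos hZpos]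
      have hmul : 0 < δ * (δ * z 0 ^ 2 + 2 * γ * z 0 * s + α * Z + β * s ^ 2) := by
        nlinarith [sq_nonneg (δ * z 0 + γ * s)]
      exact (pos_iff_pos_of_mul_pos hmul).mp hδpos

/-- smoothness -/
theorem contDiff_U : ContDiff ℝ ∞ (U m g) := by
  rw [contDiff_iff_contDiffAt]
  intro x
  have hε := h.εpos
  have hp : -ε < tt x := by
    have := tt_nonneg x
    linarith
  unfold U F
  have htt : ContDiff ℝ ∞ (tt : Rn (m + 1) → ℝ) := by
    unfold tt
    fun_prop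
  have hgx : ContDiffAt ℝ ∞ (fun x : Rn (m + 1) => g (tt x)) x :=
    (h.gsm.contDiffAt (Ioi_mem_nhds hp)).comp x htt.contDiffAt
  have hx0 : ContDiffAt ℝ ∞ (fun x : Rn (m + 1) => x 0) x := by fun_prop
  apply ContDiffAt.sqrt
  · exact (hx0.pow 2).add (hgx.pow 2)
  · have := h.gpos _ hp
    simp only
    positivity

end RadialSol

end Vale.Agent.P252
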