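import Mathlib
import Vale.Agent.P252.GlobalODE

/-!
The planar phase portrait: for `M ≥ 9` the region
`0 < a < 9/2`, `0 < c < 7/2`, `1 + c - a > 0`, `Nu > 0` is positively invariant.
-/

open Set Metric
open scoped NNReal Topology

namespace Vale.Agent.P252

/-- The numerator polynomial of the second component of the planar vector field. -/
def Nu (M a c : ℝ) : ℝ := M ^ 2 * (1 - c) + 2 * a ^ 2 + (2 * M - 3) * a + 6 * a * c

/-- The planar vector field. -/
noncomputable def XX (M : ℝ) (p : ℝ × ℝ) : ℝ × ℝ :=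
  (p.1 * (1 + p.2 - p.1), p.2 * Nu M p.1 p.2 / (M + 2 * p.1))

/-- The box. -/
def Box : Set (ℝ × ℝ) := Icc 0 (9 / 2) ×ˢ Icc 0 (7 / 2)

/-- Clamping to the box. -/
noncomputable def clampBox (p : ℝ × ℝ) : ℝ × ℝ :=
  (max 0 (min p.1 (9 / 2)), max 0 (min p.2 (7 / 2)))

lemma clampBox_mem (p : ℝ × ℝ) : clampBox p ∈ Box := by
  refine ⟨⟨?_, ?_⟩, ⟨?_, ?_⟩⟩
  · exact le_max_left _ _
  · exact max_le (by norm_num) (min_le_right _ _)
  · exact le_max_left _ _
  · exact max_le (by norm_num) (min_le_right _ _)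

lemma clampBox_eq {p : ℝ × ℝ} (hp : p ∈ Box) : clampBox p = p := by
  obtain ⟨⟨h1, h2⟩, ⟨h3, h4⟩⟩ := hp
  unfold clampBox
  rw [min_eq_left h2, min_eq_left h4, max_eq_right h1, max_eq_right h3]

lemma clampBox_lipschitz : LipschitzWith 1 clampBox := by
  have h1 : ∀ b : ℝ, LipschitzWith 1 (fun x : ℝ => max 0 (min x b)) := by
    intro b
    exact (LipschitzWith.id.min_const b).const_max 0
  have hf : LipschitzWith 1 (fun p : ℝ × ℝ => max 0 (min p.1 (9 / 2))) := by
    have h := (h1 (9 / 2)).comp (LipschitzWith.prod_fst (α := ℝ) (β := ℝ))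
    rw [one_mul] at h
    exact h
  have hs : LipschitzWith 1 (fun p : ℝ × ℝ => max 0 (min p.2 (7 / 2))) := by
    have h := (h1 (7 / 2)).comp (LipschitzWith.prod_snd (α := ℝ) (β := ℝ))
    rw [one_mul] at h
    exact h
  have h := hf.prodMk hs
  rw [max_self] at h
  exact h

lemma box_compact : IsCompact Box := isCompact_Icc.prod isCompact_Icc

lemma box_convex : Convex ℝ Box := (convex_Icc _ _).prod (convex_Icc _ _)

lemma XX_contDiffOn {M : ℝ} (hM : 9 ≤ M) : ContDiffOn ℝ 1 (XX M) Box := by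
  unfold XX Nu
  apply ContDiffOn.prodMk
  · fun_prop
  · apply ContDiffOn.div
    · fun_prop
    · fun_prop
    · intro p hp
      have := hp.1.1
      have : 0 < M + 2 * p.1 := by linarith
      exact this.ne'

lemma exists_clamped_solution {M : ℝ} (hM : 9 ≤ M) (p₀ : ℝ × ℝ) :
    ∃ α : ℝ → ℝ × ℝ, α 0 = p₀ ∧ ∀ t, HasDerivAt α (XX M (clampBox (α t))) t := by
  obtain ⟨K, hK⟩ := (XX_contDiffOn hM).exists_lipschitzOnWith one_ne_zero box_convex box_compact
  obtain ⟨C, hC⟩ := (box_compact.image_of_continuousOn (XX_contDiffOn hM).continuousOn).isBounded.exists_norm_le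
  have hlip : LipschitzWith (K * 1) (fun p => XX M (clampBox p)) := by
    have := hK.comp (clampBox_lipschitz.lipschitzOnWith (s := univ))
      (fun p _ => clampBox_mem p)
    exact lipschitzOnWith_univ.mp this
  have hC0 : 0 ≤ C := le_trans (norm_nonneg _) (hC _ ⟨clampBox p₀, clampBox_mem _, rfl⟩)
  exact exists_global_solution (fun p => XX M (clampBox p)) _ ⟨C, hC0⟩ hlip
    (fun x => hC _ ⟨clampBox x, clampBox_mem _, rfl⟩) p₀

/-- The open region. -/
def Reg (M : ℝ) (p : ℝ × ℝ) : Prop :=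
  0 < p.1 ∧ p.1 < 9 / 2 ∧ 0 < p.2 ∧ p.2 < 7 / 2 ∧ 0 < 1 + p.2 - p.1 ∧ 0 < Nu M p.1 p.2

lemma isOpen_Reg (M : ℝ) : IsOpen {p | Reg M p} := by
  unfold Reg Nu
  simp only [Set.ofPred_and]
  refine IsOpen.inter (isOpen_lt (by fun_prop) (by fun_prop)) ?_
  refine IsOpen.inter (isOpen_lt (by fun_prop) (by fun_prop)) ?_
  refine IsOpen.inter (isOpen_lt (by fun_prop) (by fun_prop)) ?_
  refine IsOpen.inter (isOpen_lt (by fun_prop) (by fun_prop)) ?_
  refine IsOpen.inter (isOpen_lt (by fun_prop) (by fun_prop)) ?_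
  exact isOpen_lt (by fun_prop) (by fun_prop)

lemma Reg.mem_box {M : ℝ} {p : ℝ × ℝ} (h : Reg M p) : p ∈ Box :=
  ⟨⟨h.1.le, h.2.1.le⟩, ⟨h.2.2.1.le, h.2.2.2.1.le⟩⟩

/-- Key invariance step. -/
lemma reg_step {M : ℝ} (hM : 9 ≤ M) {α : ℝ → ℝ × ℝ}
    (hα : ∀ t, HasDerivAt α (XX M (clampBox (α t))) t) {T : ℝ} (hT : 0 < T)
    (h : ∀ s ∈ Ico 0 T, Reg M (α s)) : Reg M (α T) := by
  have hcont : Continuous α := continuous_iff_continuousAt.mpr fun t => (hα t).continuousAt
  set a : ℝ → ℝ := fun s => (α s).1 with ha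
  set c : ℝ → ℝ := fun s => (α s).2 with hc
  have hac : Continuous a := continuous_fst.comp hcont
  have hcc : Continuous c := continuous_snd.comp hcont
  have hD : ∀ s ∈ Ioo 0 T, HasDerivAt a (a s * (1 + c s - a s)) s ∧
      HasDerivAt c (c s * Nu M (a s) (c s) / (M + 2 * a s)) s := by
    intro s hs
    have hr := h s ⟨hs.1.le, hs.2⟩
    have h1 := hα s
    rw [clampBox_eq hr.mem_box] at h1
    have hfst : HasDerivAt a _ s := (hasFDerivAt_fst (p := α s)).comp_hasDerivAt s h1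
    have hsnd : HasDerivAt c _ s := (hasFDerivAt_snd (p := α s)).comp_hasDerivAt s h1
    exact ⟨hfst, hsnd⟩
  have hcl : ∀ {f : ℝ → ℝ}, Continuous f → (∀ s ∈ Ico 0 T, 0 ≤ f s) → 0 ≤ f T := by
    intro f hf hfn
    have hmem : T ∈ closure (Ico 0 T) := by
      rw [closure_Ico hT.ne]; exact ⟨hT.le, le_rfl⟩
    have hclosed : IsClosed {s | 0 ≤ f s} := isClosed_le continuous_const hf
    exact (closure_minimal hfn hclosed) hmem
  have haT : a T ≤ 9 / 2 := by
    have := hcl (f := fun s => 9 / 2 - a s) (by fun_prop) (fun s hs => by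
      have := (h s hs).2.1; simp only [ha]; linarith)
    linarith
  have hcT : c T ≤ 7 / 2 := by
    have := hcl (f := fun s => 7 / 2 - c s) (by fun_prop) (fun s hs => by
      have := (h s hs).2.2.2.1; simp only [hc]; linarith)
    linarith
  -- monotonicity helper
  have hmono : ∀ {f f' : ℝ → ℝ}, Continuous f → (∀ s ∈ Ioo 0 T, HasDerivAt f (f' s) s) →
      (∀ s ∈ Ioo 0 T, 0 ≤ f' s) → f 0 ≤ f T := by
    intro f f' hf hd hn
    have hmon : MonotoneOn f (Icc 0 T) := by
      apply monotoneOn_of_deriv_nonneg (convex_Icc 0 T) hf.continuousOn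
      · intro s hs
        rw [interior_Icc] at hs
        exact (hd s hs).differentiableAt.differentiableWithinAt
      · intro s hs
        rw [interior_Icc] at hs
        rw [(hd s hs).deriv]
        exact hn s hs
    exact hmon ⟨le_rfl, hT.le⟩ ⟨hT.le, le_rfl⟩ hT.le
  have h0 := h 0 ⟨le_rfl, hT⟩
  have hreg : ∀ s ∈ Ioo 0 T, 0 < a s ∧ a s < 9 / 2 ∧ 0 < c s ∧ c s < 7 / 2 ∧
      0 < 1 + c s - a s ∧ 0 < Nu M (a s) (c s) := fun s hs => h s ⟨hs.1.le, hs.2⟩
  have hpos : ∀ s ∈ Ioo 0 T, 0 < M + 2 * a s := by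
    intro s hs
    have := (hreg s hs).1
    linarith
  have ha1 : a 0 ≤ a T := hmono hac (fun s hs => (hD s hs).1) (fun s hs => by
    have := hreg s hs
    exact mul_nonneg this.1.le this.2.2.2.2.1.le)
  have hc1 : c 0 ≤ c T := hmono hcc (fun s hs => (hD s hs).2) (fun s hs => by
    have := hreg s hs
    exact div_nonneg (mul_nonneg this.2.2.1.le this.2.2.2.2.2.le) (hpos s hs).le)
  have ha0 : 0 < a 0 := h0.1
  have hc0 : 0 < c 0 := h0.2.2.1
  have hφ : Real.exp ((9 / 2) * 0) * (1 + c 0 - a 0) ≤ Real.exp ((9 / 2) * T) * (1 + c T - a T) := by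
    refine hmono (f := fun s => Real.exp ((9 / 2) * s) * (1 + c s - a s))
      (f' := fun s => Real.exp ((9 / 2) * s) * (9 / 2) * (1 + c s - a s) +
        Real.exp ((9 / 2) * s) * (c s * Nu M (a s) (c s) / (M + 2 * a s) -
          a s * (1 + c s - a s))) (by fun_prop) (fun s hs => ?_) (fun s hs => ?_)
    · have hE : HasDerivAt (fun s : ℝ => Real.exp ((9 / 2) * s))
          (Real.exp ((9 / 2) * s) * (9 / 2)) s := by
        have := ((hasDerivAt_id s).const_mul (9 / 2 : ℝ)).exp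
        simpa using this
      have h2 := hE.mul (((hD s hs).2.const_add 1).sub (hD s hs).1)
      exact h2
    · have hr := hreg s hs
      have hE : 0 < Real.exp ((9 / 2) * s) := Real.exp_pos _
      have h3 : 0 ≤ c s * Nu M (a s) (c s) / (M + 2 * a s) :=
        div_nonneg (mul_nonneg hr.2.2.1.le hr.2.2.2.2.2.le) (hpos s hs).le
      have h4 : 0 ≤ (9 / 2 - a s) * (1 + c s - a s) :=
        mul_nonneg (by linarith [hr.2.1]) hr.2.2.2.2.1.le
      have : Real.exp ((9 / 2) * s) * (9 / 2) * (1 + c s - a s) +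
        Real.exp ((9 / 2) * s) * (c s * Nu M (a s) (c s) / (M + 2 * a s) -
          a s * (1 + c s - a s)) = Real.exp ((9 / 2) * s) *
          ((9 / 2 - a s) * (1 + c s - a s) + c s * Nu M (a s) (c s) / (M + 2 * a s)) := by ring
      rw [this]
      exact mul_nonneg hE.le (add_nonneg h4 h3)
  have hφT : 0 < 1 + c T - a T := by
    have h5 : 0 < Real.exp ((9 / 2) * 0) * (1 + c 0 - a 0) :=
      mul_pos (Real.exp_pos _) h0.2.2.2.2.1
    have h6 := lt_of_lt_of_le h5 hφ
    exact (pos_iff_pos_of_mul_pos h6).mp (Real.exp_pos _)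
  have hN : Real.exp ((7 / 2 * M) * 0) * Nu M (a 0) (c 0) ≤
      Real.exp ((7 / 2 * M) * T) * Nu M (a T) (c T) := by
    refine hmono (f := fun s => Real.exp ((7 / 2 * M) * s) * Nu M (a s) (c s))
      (f' := fun s => Real.exp ((7 / 2 * M) * s) * (7 / 2 * M) * Nu M (a s) (c s) +
        Real.exp ((7 / 2 * M) * s) *
          ((4 * a s + (2 * M - 3) + 6 * c s) * (a s * (1 + c s - a s)) +
          (6 * a s - M ^ 2) * (c s * Nu M (a s) (c s) / (M + 2 * a s))))
        (by unfold Nu; fun_prop) (fun s hs => ?_) (fun s hs => ?_)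
    · have hE : HasDerivAt (fun s : ℝ => Real.exp ((7 / 2 * M) * s))
          (Real.exp ((7 / 2 * M) * s) * (7 / 2 * M)) s := by
        have := ((hasDerivAt_id s).const_mul (7 / 2 * M : ℝ)).exp
        simpa using this
      have hA := (hD s hs).1
      have hC := (hD s hs).2
      have hNd : HasDerivAt (fun s => Nu M (a s) (c s))
          ((4 * a s + (2 * M - 3) + 6 * c s) * (a s * (1 + c s - a s)) +
          (6 * a s - M ^ 2) * (c s * Nu M (a s) (c s) / (M + 2 * a s))) s := by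
        have h7 := ((((hC.const_sub 1).const_mul (M ^ 2)).add ((hA.pow 2).const_mul 2)).add
          (hA.const_mul (2 * M - 3))).add ((hA.const_mul 6).mul hC)
        convert! h7 using 1
        simp only [Nat.cast_ofNat]
        ring
      exact hE.mul hNd
    · have hr := hreg s hs
      have hE : 0 < Real.exp ((7 / 2 * M) * s) := Real.exp_pos _
      have hp := hpos s hs
      have h8 : 0 ≤ (4 * a s + (2 * M - 3) + 6 * c s) * (a s * (1 + c s - a s)) := by
        apply mul_nonneg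
        · linarith [hr.1, hr.2.2.1]
        · exact mul_nonneg hr.1.le hr.2.2.2.2.1.le
      have h9 : 0 ≤ (7 / 2 * M) + (6 * a s - M ^ 2) * (c s / (M + 2 * a s)) := by
        have h10 : (7 / 2 * M) + (6 * a s - M ^ 2) * (c s / (M + 2 * a s)) =
            ((7 / 2 * M) * (M + 2 * a s) + (6 * a s - M ^ 2) * c s) / (M + 2 * a s) := by
          field_simp
        rw [h10]
        apply div_nonneg _ hp.le
        have e1 : 0 ≤ (7 / 2 - c s) * M ^ 2 := mul_nonneg (by linarith [hr.2.2.2.1]) (sq_nonneg _)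
        have e2 : 0 ≤ a s * c s := mul_nonneg hr.1.le hr.2.2.1.le
        have e3 : 0 ≤ M * a s := mul_nonneg (by linarith) hr.1.le
        nlinarith [e1, e2, e3]
      have h11 : Real.exp ((7 / 2 * M) * s) * (7 / 2 * M) * Nu M (a s) (c s) +
        Real.exp ((7 / 2 * M) * s) *
          ((4 * a s + (2 * M - 3) + 6 * c s) * (a s * (1 + c s - a s)) +
          (6 * a s - M ^ 2) * (c s * Nu M (a s) (c s) / (M + 2 * a s))) =
          Real.exp ((7 / 2 * M) * s) * (((7 / 2 * M) + (6 * a s - M ^ 2) *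
            (c s / (M + 2 * a s))) * Nu M (a s) (c s) +
            (4 * a s + (2 * M - 3) + 6 * c s) * (a s * (1 + c s - a s))) := by ring
      rw [h11]
      exact mul_nonneg hE.le (add_nonneg (mul_nonneg h9 hr.2.2.2.2.2.le) h8)
  have hNT : 0 < Nu M (a T) (c T) := by
    have h5 : 0 < Real.exp ((7 / 2 * M) * 0) * Nu M (a 0) (c 0) :=
      mul_pos (Real.exp_pos _) h0.2.2.2.2.2
    have h6 := lt_of_lt_of_le h5 hN
    exact (pos_iff_pos_of_mul_pos h6).mp (Real.exp_pos _)
  have haT' : a T < 9 / 2 := by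
    rcases haT.lt_or_eq with h | h
    · exact h
    · exfalso; linarith
  have hcT' : c T < 7 / 2 := by
    rcases hcT.lt_or_eq with h | h
    · exact h
    · exfalso
      have haTp : 0 < a T := lt_of_lt_of_le ha0 ha1
      rw [h] at hNT
      unfold Nu at hNT
      nlinarith [mul_nonneg (by linarith : (0:ℝ) ≤ M - 9) (by linarith : (0:ℝ) ≤ 5 / 2 * M + 27 / 2),
        mul_nonneg (by linarith : (0:ℝ) ≤ 9 / 2 - a T) (by linarith : (0:ℝ) ≤ M),
        mul_nonneg (by linarith : (0:ℝ) ≤ 9 / 2 - a T) haTp.le]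
  exact ⟨lt_of_lt_of_le ha0 ha1, haT', lt_of_lt_of_le hc0 hc1, hcT', hφT, hNT⟩

/-- Global planar solution staying in the region. -/
theorem exists_planar_solution {M : ℝ} (hM : 9 ≤ M) {a₀ c₀ : ℝ} (h0 : Reg M (a₀, c₀)) :
    ∃ a c : ℝ → ℝ, ∃ δ > 0, a 0 = a₀ ∧ c 0 = c₀ ∧ ∀ s, -δ < s →
      HasDerivAt a (a s * (1 + c s - a s)) s ∧
      HasDerivAt c (c s * Nu M (a s) (c s) / (M + 2 * a s)) s ∧
      Reg M (a s, c s) := by
  obtain ⟨α, hα0, hα⟩ := exists_clamped_solution hM (a₀, c₀)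
  have hcont : Continuous α := continuous_iff_continuousAt.mpr fun t => (hα t).continuousAt
  have hopen : IsOpen {s | Reg M (α s)} := (isOpen_Reg M).preimage hcont
  have hmem0 : Reg M (α 0) := by rw [hα0]; exact h0
  have hall : ∀ s, 0 ≤ s → Reg M (α s) := by
    intro s hs
    by_contra hcon
    set S : Set ℝ := {r | 0 ≤ r ∧ ¬ Reg M (α r)} with hS
    have hSclosed : IsClosed S := by
      apply IsClosed.inter isClosed_Ici
      exact hopen.isClosed_compl
    have hSne : S.Nonempty := ⟨s, hs, hcon⟩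
    have hSbdd : BddBelow S := ⟨0, fun r hr => hr.1⟩
    have hTmem : sInf S ∈ S := hSclosed.csInf_mem hSne hSbdd
    set T := sInf S with hTdef
    have hTpos : 0 < T := by
      rcases hTmem.1.lt_or_eq with h | h
      · exact h
      · exfalso
        apply hTmem.2
        rw [← h]; exact hmem0
    apply hTmem.2
    apply reg_step hM hα hTpos
    intro r hr
    by_contra hcon'
    have : T ≤ r := csInf_le hSbdd ⟨hr.1, hcon'⟩
    linarith [hr.2]
  obtain ⟨δ, hδ, hball⟩ := Metric.isOpen_iff.mp hopen 0 hmem0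
  refine ⟨fun s => (α s).1, fun s => (α s).2, δ, hδ, by simp [hα0], by simp [hα0], ?_⟩
  intro s hs
  have hr : Reg M (α s) := by
    rcases le_or_gt 0 s with h | h
    · exact hall s h
    · apply hball
      rw [Metric.mem_ball, Real.dist_eq, sub_zero, abs_of_neg h]
      linarith
  have h1 := hα s
  rw [clampBox_eq hr.mem_box] at h1
  exact ⟨(hasFDerivAt_fst (p := α s)).comp_hasDerivAt s h1,
    (hasFDerivAt_snd (p := α s)).comp_hasDerivAt s h1, hr⟩

end Vale.Agent.P252
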