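import Mathlib
import Vale.Agent.P252.Planar
import Vale.Agent.P252.LocalSol
import Vale.Agent.P252.PDE

/-!
Gluing the local analytic solution with the global planar solution.
-/

open scoped ContDiff Topology
open Set Filter

namespace Vale.Agent.P252

/-- Local solution of `A' = A² (f(2tA) - 1)`, `A(0) = 1`. -/
theorem exists_local_A {ρ : ℝ} (hρ : 0 < ρ) {f : ℝ → ℝ}
    (hf : ContDiffOn ℝ ∞ f (Ioo (-ρ) ρ)) :
    ∃ A : ℝ → ℝ, A 0 = 1 ∧ ∃ ε > 0, ∀ t ∈ Ioo (-ε) ε,
      HasDerivAt A (A t ^ 2 * (f (2 * t * A t) - 1)) t := by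
  let X : ℝ × ℝ → ℝ × ℝ := fun p => (1, p.2 ^ 2 * (f (2 * p.1 * p.2) - 1))
  have hX : ContDiffAt ℝ 1 X (0, 1) := by
    have h1 : ContDiffAt ℝ 1 (fun p : ℝ × ℝ => f (2 * p.1 * p.2)) (0, 1) := by
      have h2 : ContDiffAt ℝ 1 f ((fun p : ℝ × ℝ => 2 * p.1 * p.2) (0, 1)) := by
        apply ((hf.contDiffAt (Ioo_mem_nhds ?_ ?_)).of_le (by exact_mod_cast le_top))
        · simp [hρ]
        · simp [hρ]
      exact h2.comp (0, 1) (f := fun p : ℝ × ℝ => 2 * p.1 * p.2) (by fun_prop)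
    apply ContDiffAt.prodMk
    · exact contDiffAt_const
    · exact (contDiffAt_snd.pow 2).mul (h1.sub contDiffAt_const)
  obtain ⟨α, hα0, ε, hε, hα⟩ :=
    hX.exists_forall_mem_closedBall_exists_eq_forall_mem_Ioo_hasDerivAt₀ 0
  simp only [zero_sub, zero_add] at hα
  have hfst : ∀ t ∈ Ioo (-ε) ε, HasDerivAt (fun t => (α t).1) 1 t := fun t ht =>
    (hasFDerivAt_fst (p := α t)).comp_hasDerivAt t (hα t ht)
  have hid : ∀ t ∈ Ioo (-ε) ε, (α t).1 = t := by
    intro t ht
    have h0 : (0 : ℝ) ∈ Ioo (-ε) ε := ⟨by linarith, hε⟩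
    have hconst : ∀ s ∈ Ioo (-ε) ε, HasDerivAt (fun t => (α t).1 - t) 0 s := by
      intro s hs
      have h := (hfst s hs).sub (hasDerivAt_id s)
      rw [sub_self] at h
      exact h
    have := isOpen_Ioo.is_const_of_deriv_eq_zero (isPreconnected_Ioo (a := -ε) (b := ε))
      (f := fun t => (α t).1 - t)
      (fun s hs => (hconst s hs).differentiableAt.differentiableWithinAt)
      (fun s hs => (hconst s hs).deriv) ht h0
    simp only [hα0] at this
    linarith
  refine ⟨fun t => (α t).2, by simp [hα0], ε, hε, fun t ht => ?_⟩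
  have h1 : HasDerivAt (fun t => (α t).2) ((α t).2 ^ 2 * (f (2 * (α t).1 * (α t).2) - 1)) t :=
    (hasFDerivAt_snd (p := α t)).comp_hasDerivAt t (hα t ht)
  rw [hid t ht] at h1
  exact h1


lemma hasDerivAt_ite {u v : ℝ → ℝ} {d t₀ : ℝ} (hu : HasDerivAt u d t₀) (hv : HasDerivAt v d t₀)
    (huv : u t₀ = v t₀) : HasDerivAt (fun t => if t ≤ t₀ then u t else v t) d t₀ := by
  have h1 : HasDerivWithinAt (fun t => if t ≤ t₀ then u t else v t) d (Iic t₀) t₀ := by
    apply hu.hasDerivWithinAt.congr_of_mem _ (mem_Iic.mpr le_rfl)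
    intro t ht
    simp only [mem_Iic.mp ht, if_true]
  have h2 : HasDerivWithinAt (fun t => if t ≤ t₀ then u t else v t) d (Ici t₀) t₀ := by
    apply hv.hasDerivWithinAt.congr_of_mem _ (mem_Ici.mpr le_rfl)
    intro t ht
    rcases (mem_Ici.mp ht).eq_or_lt with h | h
    · subst h
      simp [huv]
    · simp [not_le.mpr h]
  have h3 := h1.union h2
  rw [Iic_union_Ici] at h3
  exact hasDerivWithinAt_univ.mp h3

/-- the right-hand side for `c'` -/
noncomputable def ctf (M t A K : ℝ) : ℝ :=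
  (1 + 2 * t * K) * ((M + 3) * A * ((M + 4 * t * A) + 2 * (1 + 2 * t * K) - 1) / (M + 4 * t * A)
      - (M + 2) * A - M * K)

lemma ctf_alg {M t α φ : ℝ} (hd : M + 4 * t * α ≠ 0) :
    (1 + 2 * t * (α * φ)) * ((M + 3) * α * ((M + 4 * t * α) + 2 * (1 + 2 * t * (α * φ)) - 1) /
      (M + 4 * t * α) - (M + 2) * α - M * (α * φ)) =
    α * ((1 + 2 * t * α * φ) * ((2 * M + 3) + 2 * (2 * t * α) - M ^ 2 * φ +
            6 * (2 * t * α) * φ) / (M + 4 * t * α)) := by
  rw [mul_div_assoc', eq_div_iff hd]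
  have : ((M + 3) * α * ((M + 4 * t * α) + 2 * (1 + 2 * t * (α * φ)) - 1) / (M + 4 * t * α)
      - (M + 2) * α - M * (α * φ)) * (M + 4 * t * α) =
      (M + 3) * α * ((M + 4 * t * α) + 2 * (1 + 2 * t * (α * φ)) - 1) -
        ((M + 2) * α + M * (α * φ)) * (M + 4 * t * α) := by
    rw [sub_mul, sub_mul, div_mul_cancel₀ _ hd]; ring
  rw [mul_assoc, this]
  ring

/-- Local data near `0`. -/
theorem exists_local_AK {M : ℝ} (hM : 9 ≤ M) : ∃ A K : ℝ → ℝ, ∃ ε > 0,
    ContDiffOn ℝ ∞ A (Ioo (-ε) ε) ∧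
    (∀ t ∈ Ioo (-ε) ε, 0 < A t ∧ 0 < 1 + 2 * t * K t ∧ 0 < M + 4 * t * A t ∧
      HasDerivAt A (A t * (K t - A t)) t ∧
      HasDerivAt (fun t => 1 + 2 * t * K t) (ctf M t (A t) (K t)) t) ∧
    (∀ t ∈ Ioo 0 ε, Reg M (2 * t * A t, 1 + 2 * t * K t)) := by
  obtain ⟨ρ, hρ, f, hfs, hf0, hfode⟩ := exists_local_f hM
  obtain ⟨A, hA0, ε₁, hε₁, hA⟩ := exists_local_A hρ hfs
  set K : ℝ → ℝ := fun t => A t * f (2 * t * A t) with hK
  have hMpos : 0 < M := by linarith
  have hAc0 : ContinuousAt A 0 := (hA 0 ⟨by linarith, hε₁⟩).continuousAt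
  have hac0 : ContinuousAt (fun t => 2 * t * A t) 0 := by fun_prop
  have hfc0 : ContinuousAt f (2 * 0 * A 0) := by
    have h0 : (2 * 0 * A 0 : ℝ) = 0 := by ring
    rw [h0]
    exact (hfs.continuousOn).continuousAt (Ioo_mem_nhds (by linarith) hρ)
  have hfa0 : ContinuousAt (fun t => f (2 * t * A t)) 0 :=
    ContinuousAt.comp (f := fun t => 2 * t * A t) (g := f) hfc0 hac0
  have hev : ∀ {φ : ℝ → ℝ}, ContinuousAt φ 0 → 0 < φ 0 → ∀ᶠ t in 𝓝 (0 : ℝ), 0 < φ t := by
    intro φ hφ h0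
    exact hφ.eventually (lt_mem_nhds h0)
  have e1 := hev (φ := fun t => A t - 1 / 2) (by fun_prop) (by norm_num [hA0])
  have e2 := hev (φ := fun t => 2 - A t) (by fun_prop) (by norm_num [hA0])
  have e3 := hev (φ := fun t => ρ - 2 * t * A t) (by fun_prop) (by simp [hρ])
  have e4 := hev (φ := fun t => ρ + 2 * t * A t) (by fun_prop) (by simp [hρ])
  have e5 := hev (φ := fun t => 1 + 2 * t * A t * f (2 * t * A t)) (by fun_prop) (by simp)
  have e6 := hev (φ := fun t => M + 4 * t * A t) (by fun_prop) (by simp [hMpos])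
  have e7 := hev (φ := fun t => 9 / 2 - 2 * t * A t) (by fun_prop) (by simp)
  have e8 := hev (φ := fun t => 7 / 2 - (1 + 2 * t * A t * f (2 * t * A t))) (by fun_prop)
    (by norm_num)
  have e9 := hev (φ := fun t => 1 + (1 + 2 * t * A t * f (2 * t * A t)) - 2 * t * A t)
    (by fun_prop) (by norm_num)
  have e10 := hev (φ := fun t => - M ^ 2 * f (2 * t * A t) + 2 * (2 * t * A t) + (2 * M - 3) +
    6 * (1 + 2 * t * A t * f (2 * t * A t))) (by fun_prop) (by
      have h0 : f (2 * 0 * A 0) = (2 * M + 3) / (2 * M + M ^ 2) := by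
        rw [← hf0]; congr 1; ring
      simp only [h0]
      have : -M ^ 2 * ((2 * M + 3) / (2 * M + M ^ 2)) + 2 * (2 * 0 * A 0) + (2 * M - 3) +
        6 * (1 + 2 * 0 * A 0 * ((2 * M + 3) / (2 * M + M ^ 2))) =
        2 * (2 * M + 3) / (M + 2) := by
        field_simp
        ring
      rw [this]
      positivity)
  have hall := e1.and (e2.and (e3.and (e4.and (e5.and (e6.and (e7.and (e8.and (e9.and e10))))))))
  obtain ⟨ε₂, hε₂, hball⟩ := Metric.eventually_nhds_iff.mp hall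
  set ε : ℝ := min (min ε₁ ε₂) (ρ / 4) with hε
  have hεpos : 0 < ε := lt_min (lt_min hε₁ hε₂) (by linarith)
  have hεle1 : ε ≤ ε₁ := (min_le_left _ _).trans (min_le_left _ _)
  have hεle2 : ε ≤ ε₂ := (min_le_left _ _).trans (min_le_right _ _)
  have hεle3 : ε ≤ ρ / 4 := min_le_right _ _
  have hprop : ∀ t ∈ Ioo (-ε) ε, _ := fun t (ht : t ∈ Ioo (-ε) ε) =>
    hball (y := t) (by
      rw [Real.dist_eq, sub_zero]
      exact lt_of_lt_of_le (abs_lt.mpr ht) hεle2)
  have hsub1 : ∀ t ∈ Ioo (-ε) ε, t ∈ Ioo (-ε₁) ε₁ := fun t ht =>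
    ⟨by linarith [ht.1], by linarith [ht.2]⟩
  refine ⟨A, K, ε, hεpos, ?_, ?_, ?_⟩
  · -- smoothness
    intro t₀ ht₀
    obtain ⟨η, hη1, hη2⟩ := exists_between (abs_lt.mpr ht₀)
    have hη0 : 0 < η := lt_of_le_of_lt (abs_nonneg _) hη1
    have hcd : ContDiffOn ℝ ((⊤ : ℕ∞) : WithTop ℕ∞) A (Icc (-η) η) := by
      apply ODE.contDiffOn_enat_Icc_of_hasDerivWithinAt
        (f := fun t x => x ^ 2 * (f (2 * t * x) - 1)) (u := Ioo (1 / 2) 2)
      · have h1 : ContDiffOn ℝ ((⊤ : ℕ∞) : WithTop ℕ∞) (fun p : ℝ × ℝ => f (2 * p.1 * p.2))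
            (Icc (-η) η ×ˢ Ioo (1 / 2) 2) := by
          apply hfs.comp (f := fun p : ℝ × ℝ => 2 * p.1 * p.2) (by fun_prop)
          rintro ⟨p, x⟩ ⟨⟨h1, h2⟩, ⟨h3, h4⟩⟩
          simp only at h1 h2 h3 h4 ⊢
          constructor
          · nlinarith
          · nlinarith
        have h2 : ContDiffOn ℝ ((⊤ : ℕ∞) : WithTop ℕ∞) (fun p : ℝ × ℝ => p.2)
            (Icc (-η) η ×ˢ Ioo (1 / 2) 2) := by fun_prop
        exact (h2.pow 2).mul (h1.sub contDiffOn_const)
      · intro t ht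
        have ht' : t ∈ Ioo (-ε) ε := ⟨by linarith [ht.1], by linarith [ht.2]⟩
        exact (hA t (hsub1 t ht')).hasDerivWithinAt
      · intro t ht
        have ht' : t ∈ Ioo (-ε) ε := ⟨by linarith [ht.1], by linarith [ht.2]⟩
        have hp := hprop t ht'
        exact ⟨by linarith [hp.1], by linarith [hp.2.1]⟩
    have hlt := abs_lt.mp hη1
    exact (hcd.contDiffAt (Icc_mem_nhds hlt.1 hlt.2)).contDiffWithinAt
  · intro t ht
    have hp := hprop t ht
    have hApos : 0 < A t := by linarith [hp.1]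
    have hρt : 2 * t * A t ∈ Ioo (-ρ) ρ := ⟨by linarith [hp.2.2.2.1], by linarith [hp.2.2.1]⟩
    have hKc : 1 + 2 * t * K t = 1 + 2 * t * A t * f (2 * t * A t) := by
      simp only [hK]; ring
    have hAder := hA t (hsub1 t ht)
    refine ⟨hApos, ?_, hp.2.2.2.2.2.1, ?_, ?_⟩
    · rw [hKc]; exact hp.2.2.2.2.1
    · have : A t * (K t - A t) = A t ^ 2 * (f (2 * t * A t) - 1) := by simp only [hK]; ring
      rw [this]; exact hAder
    · obtain ⟨f', hf', hode⟩ := hfode _ hρt
      have hader : HasDerivAt (fun t => 2 * t * A t)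
          (2 * A t + 2 * t * (A t ^ 2 * (f (2 * t * A t) - 1))) t := by
        have := ((hasDerivAt_id t).const_mul 2).mul hAder
        convert! this using 1
        simp
      have hcomp : HasDerivAt (fun t => f (2 * t * A t))
          (f' * (2 * A t + 2 * t * (A t ^ 2 * (f (2 * t * A t) - 1)))) t :=
        HasDerivAt.comp t hf' hader
      have hfin := (hader.mul hcomp).const_add 1
      have hfun : (fun t => 1 + 2 * t * K t) = fun t => 1 + 2 * t * A t * f (2 * t * A t) := by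
        funext s; simp only [hK]; ring
      rw [hfun]
      convert! hfin using 1
      have hd : M + 4 * t * A t ≠ 0 := hp.2.2.2.2.2.1.ne'
      unfold ctf
      simp only [hK]
      rw [eq_comm]
      have hd2 : M + 2 * (2 * t * A t) ≠ 0 := by
        intro h0; apply hd; linarith
      set φ := f (2 * t * A t) with hφ
      have key : (2 + 2 * t * A t * φ - 2 * t * A t) * (φ + 2 * t * A t * f') =
          (1 + 2 * t * A t * φ) * ((2 * M + 3) + 2 * (2 * t * A t) - M ^ 2 * φ +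
            6 * (2 * t * A t) * φ) / (M + 4 * t * A t) := by
        rw [eq_div_iff hd]
        linear_combination hode
      have lhs : (2 * A t + 2 * t * (A t ^ 2 * (φ - 1))) * φ +
          2 * t * A t * (f' * (2 * A t + 2 * t * (A t ^ 2 * (φ - 1)))) =
          A t * ((2 + 2 * t * A t * φ - 2 * t * A t) * (φ + 2 * t * A t * f')) := by ring
      rw [lhs, key]
      exact (ctf_alg hd).symm
  · intro t ht
    have ht' : t ∈ Ioo (-ε) ε := ⟨by linarith [ht.1], ht.2⟩
    have hp := hprop t ht'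
    have hApos : 0 < A t := by linarith [hp.1]
    have hKc : 1 + 2 * t * K t = 1 + 2 * t * A t * f (2 * t * A t) := by
      simp only [hK]; ring
    have hapos : 0 < 2 * t * A t := by
      have := ht.1
      positivity
    obtain ⟨-, -, -, -, q5, q6, q7, q8, q9, q10⟩ := hp
    refine ⟨hapos, by simp only; linarith, ?_, ?_, ?_, ?_⟩
    · simp only [hKc]; exact q5
    · simp only [hKc]; linarith
    · simp only [hKc]; linarith
    · simp only [hKc]
      unfold Nu
      have : M ^ 2 * (1 - (1 + 2 * t * A t * f (2 * t * A t))) + 2 * (2 * t * A t) ^ 2 +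
          (2 * M - 3) * (2 * t * A t) + 6 * (2 * t * A t) *
          (1 + 2 * t * A t * f (2 * t * A t)) =
          (2 * t * A t) * (- M ^ 2 * f (2 * t * A t) + 2 * (2 * t * A t) + (2 * M - 3) +
            6 * (1 + 2 * t * A t * f (2 * t * A t))) := by ring
      rw [this]
      exact mul_pos hapos q10

/-- Forward data. -/
theorem exists_forward_AK {M : ℝ} (hM : 9 ≤ M) {t₀ A₀ K₀ : ℝ} (ht₀ : 0 < t₀)
    (hreg : Reg M (2 * t₀ * A₀, 1 + 2 * t₀ * K₀)) : ∃ A K : ℝ → ℝ,
    A t₀ = A₀ ∧ K t₀ = K₀ ∧ ∀ t, t₀ ≤ t → (0 < A t ∧ 0 < 1 + 2 * t * K t ∧ 0 < M + 4 * t * A t ∧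
      HasDerivAt A (A t * (K t - A t)) t ∧
      HasDerivAt (fun t => 1 + 2 * t * K t) (ctf M t (A t) (K t)) t) := by
  obtain ⟨a, c, δ, hδ, ha0, hc0, hac⟩ := exists_planar_solution hM hreg
  set s : ℝ → ℝ := fun t => Real.log (t / t₀) / 2 with hs
  have hs0 : s t₀ = 0 := by simp [hs, ht₀.ne']
  have hsnn : ∀ t, t₀ ≤ t → 0 ≤ s t := by
    intro t ht
    simp only [hs]
    apply div_nonneg _ (by norm_num)
    apply Real.log_nonneg
    rw [le_div_iff₀ ht₀]; linarith
  refine ⟨fun t => a (s t) / (2 * t), fun t => (c (s t) - 1) / (2 * t), ?_, ?_, ?_⟩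
  · simp only [hs0, ha0]
    field_simp
  · simp only [hs0, hc0]
    field_simp
    ring
  · intro t ht
    have htpos : 0 < t := lt_of_lt_of_le ht₀ ht
    have hst := hsnn t ht
    obtain ⟨hda, hdc, hr⟩ := hac (s t) (by linarith)
    have hsd : HasDerivAt s (1 / (2 * t)) t := by
      have h1 : HasDerivAt (fun t => t / t₀) (1 / t₀) t := (hasDerivAt_id t).div_const t₀
      have h2 := (h1.log (by positivity)).div_const 2
      convert! h2 using 1
      field_simp
    have hda' : HasDerivAt (fun t => a (s t)) (a (s t) * (1 + c (s t) - a (s t)) * (1 / (2 * t))) t :=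
      HasDerivAt.comp t hda hsd
    have hdc' : HasDerivAt (fun t => c (s t))
        (c (s t) * Nu M (a (s t)) (c (s t)) / (M + 2 * a (s t)) * (1 / (2 * t))) t :=
      HasDerivAt.comp t hdc hsd
    have h2t : HasDerivAt (fun t : ℝ => 2 * t) 2 t := by
      simpa using (hasDerivAt_id t).const_mul (2 : ℝ)
    have ha1 := hr.1
    have hc1 := hr.2.2.1
    simp only at ha1 hc1
    have hMa : 0 < M + 2 * a (s t) := by linarith
    have hev : (fun t => 1 + 2 * t * ((c (s t) - 1) / (2 * t))) =ᶠ[𝓝 t] fun t => c (s t) := by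
      filter_upwards [lt_mem_nhds htpos] with r hr
      field_simp
      ring
    have hcc : 1 + 2 * t * ((c (s t) - 1) / (2 * t)) = c (s t) := hev.self_of_nhds
    refine ⟨by positivity, ?_, ?_, ?_, ?_⟩
    · rw [hcc]; exact hc1
    · have : 4 * t * (a (s t) / (2 * t)) = 2 * a (s t) := by field_simp; ring
      rw [this]; exact hMa
    · have h3 := hda'.div h2t (by positivity)
      convert! h3 using 1
      field_simp
      ring
    · refine HasDerivAt.congr_of_eventuallyEq ?_ hev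
      convert! hdc' using 1
      unfold ctf Nu
      rw [hcc]
      have e1 : 4 * t * (a (s t) / (2 * t)) = 2 * a (s t) := by field_simp; ring
      rw [e1]
      field_simp
      ring

end Vale.Agent.P252
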