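import Mathlib
import Vale.Agent.P252.Glue

/-!
Existence of the global radial profile.
-/

open scoped ContDiff Topology
open Set Filter

namespace Vale.Agent.P252

/-- The glued data, on `(-ε, ∞)`. -/
theorem exists_glued {M : ℝ} (hM : 9 ≤ M) : ∃ A K : ℝ → ℝ, ∃ ε > 0,
    ContDiffOn ℝ ∞ A (Ioi (-ε)) ∧
    (∀ t, -ε < t → 0 < A t ∧ 0 < 1 + 2 * t * K t ∧ 0 < M + 4 * t * A t ∧
      HasDerivAt A (A t * (K t - A t)) t ∧
      HasDerivAt (fun t => 1 + 2 * t * K t) (ctf M t (A t) (K t)) t) := by
  obtain ⟨A₁, K₁, ε, hε, hA₁s, h₁, hreg⟩ := exists_local_AK hM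
  have ht₀ : 0 < ε / 2 := by linarith
  have ht₀' : ε / 2 < ε := by linarith
  set t₀ : ℝ := ε / 2 with ht₀d
  obtain ⟨A₂, K₂, hA0, hK0, h₂⟩ := exists_forward_AK hM ht₀ (hreg t₀ ⟨ht₀, ht₀'⟩)
  set A : ℝ → ℝ := fun t => if t ≤ t₀ then A₁ t else A₂ t with hA
  set K : ℝ → ℝ := fun t => if t ≤ t₀ then K₁ t else K₂ t with hK
  have hCfun : (fun t => 1 + 2 * t * K t) =
      fun t => if t ≤ t₀ then 1 + 2 * t * K₁ t else 1 + 2 * t * K₂ t := by
    funext t
    simp only [hK]
    split_ifs <;> rfl
  have hmain : ∀ t, -ε < t → 0 < A t ∧ 0 < 1 + 2 * t * K t ∧ 0 < M + 4 * t * A t ∧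
      HasDerivAt A (A t * (K t - A t)) t ∧
      HasDerivAt (fun t => 1 + 2 * t * K t) (ctf M t (A t) (K t)) t := by
    intro t ht
    rcases lt_trichotomy t t₀ with hlt | heq | hgt
    · have hAt : A t = A₁ t := by simp only [hA, if_pos hlt.le]
      have hKt : K t = K₁ t := by simp only [hK, if_pos hlt.le]
      obtain ⟨p1, p2, p3, p4, p5⟩ := h₁ t ⟨ht, by linarith⟩
      rw [hAt, hKt]
      refine ⟨p1, p2, p3, ?_, ?_⟩
      · apply p4.congr_of_eventuallyEq
        filter_upwards [gt_mem_nhds hlt] with s hs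
        simp only [hA, if_pos hs.le]
      · apply p5.congr_of_eventuallyEq
        filter_upwards [gt_mem_nhds hlt] with s hs
        simp only [hK, if_pos hs.le]
    · subst heq
      have hAt : A t₀ = A₁ t₀ := by simp only [hA, if_pos le_rfl]
      have hKt : K t₀ = K₁ t₀ := by simp only [hK, if_pos le_rfl]
      obtain ⟨p1, p2, p3, p4, p5⟩ := h₁ t₀ ⟨ht, ht₀'⟩
      obtain ⟨q1, q2, q3, q4, q5⟩ := h₂ t₀ le_rfl
      rw [hA0, hK0] at q4 q5
      rw [hAt, hKt]
      refine ⟨p1, p2, p3, ?_, ?_⟩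
      · exact hasDerivAt_ite p4 q4 hA0.symm
      · rw [hCfun]
        exact hasDerivAt_ite p5 q5 (by simp only [hK0])
    · have hAt : A t = A₂ t := by simp only [hA, if_neg (not_le.mpr hgt)]
      have hKt : K t = K₂ t := by simp only [hK, if_neg (not_le.mpr hgt)]
      obtain ⟨p1, p2, p3, p4, p5⟩ := h₂ t hgt.le
      rw [hAt, hKt]
      refine ⟨p1, p2, p3, ?_, ?_⟩
      · apply p4.congr_of_eventuallyEq
        filter_upwards [lt_mem_nhds hgt] with s hs
        simp only [hA, if_neg (not_le.mpr hs)]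
      · apply p5.congr_of_eventuallyEq
        filter_upwards [lt_mem_nhds hgt] with s hs
        simp only [hK, if_neg (not_le.mpr hs)]
  refine ⟨A, K, ε, hε, ?_, hmain⟩
  -- smoothness
  intro t₁ ht₁
  rw [mem_Ioi] at ht₁
  rcases lt_or_ge t₁ t₀ with hlt | hge
  · have h1 : ContDiffAt ℝ ∞ A₁ t₁ := hA₁s.contDiffAt (Ioo_mem_nhds ht₁ (by linarith))
    have h2 : ContDiffAt ℝ ∞ A t₁ := by
      apply h1.congr_of_eventuallyEq
      filter_upwards [gt_mem_nhds hlt] with s hs
      simp only [hA, if_pos hs.le]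
    exact h2.contDiffWithinAt
  · have ht₁pos : 0 < t₁ := by linarith
    have hKd : ∀ t, 0 < t → HasDerivAt K ((ctf M t (A t) (K t) - 2 * K t) / (2 * t)) t := by
      intro t ht
      obtain ⟨-, -, -, -, p5⟩ := hmain t (by linarith)
      have h2t : HasDerivAt (fun t : ℝ => 2 * t) 2 t := by
        simpa using (hasDerivAt_id t).const_mul (2 : ℝ)
      have h3 := (p5.sub_const 1).div h2t (by positivity)
      have h4 : HasDerivAt K ((ctf M t (A t) (K t) * (2 * t) - (1 + 2 * t * K t - 1) * 2) /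
          (2 * t) ^ 2) t := by
        apply h3.congr_of_eventuallyEq
        filter_upwards [lt_mem_nhds ht] with r hr
        simp only [Pi.div_apply]
        field_simp
        ring
      convert! h4 using 1
      field_simp
      ring
    have hcd : ContDiffOn ℝ ((⊤ : ℕ∞) : WithTop ℕ∞) (fun t => (A t, K t))
        (Icc (t₁ / 2) (t₁ + 1)) := by
      apply ODE.contDiffOn_enat_Icc_of_hasDerivWithinAt
        (f := fun t (x : ℝ × ℝ) => (x.1 * (x.2 - x.1), (ctf M t x.1 x.2 - 2 * x.2) / (2 * t)))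
        (u := {p : ℝ × ℝ | 0 < p.1})
      · have hden1 : ∀ p ∈ Icc (t₁ / 2) (t₁ + 1) ×ˢ {p : ℝ × ℝ | 0 < p.1},
            M + 4 * p.1 * p.2.1 ≠ 0 := by
          rintro ⟨t, a, k⟩ ⟨h1, h2⟩
          simp only [mem_ofPred_eq, mem_Icc] at h1 h2 ⊢
          have : 0 < t := by linarith [h1.1]
          positivity
        have hden2 : ∀ p ∈ Icc (t₁ / 2) (t₁ + 1) ×ˢ {p : ℝ × ℝ | 0 < p.1},
            2 * p.1 ≠ 0 := by
          rintro ⟨t, a, k⟩ ⟨h1, h2⟩
          simp only [mem_ofPred_eq, mem_Icc] at h1 h2 ⊢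
          have : 0 < t := by linarith [h1.1]
          positivity
        apply ContDiffOn.prodMk
        · fun_prop
        · apply ContDiffOn.div
          · simp only [ctf]
            apply ContDiffOn.sub
            · apply ContDiffOn.mul
              · fun_prop
              · apply ContDiffOn.sub
                · apply ContDiffOn.sub
                  · apply ContDiffOn.div
                    · fun_prop
                    · fun_prop
                    · exact hden1
                  · fun_prop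
                · fun_prop
            · fun_prop
          · fun_prop
          · exact hden2
      · intro t ht
        have htp : 0 < t := by linarith [ht.1]
        have h1 := (hmain t (by linarith)).2.2.2.1
        exact (h1.prodMk (hKd t htp)).hasDerivWithinAt
      · intro t ht
        have htp : 0 < t := by linarith [ht.1]
        exact (hmain t (by linarith)).1
    have h5 : ContDiffAt ℝ ∞ (fun t => (A t, K t)) t₁ :=
      hcd.contDiffAt (Icc_mem_nhds (by linarith) (by linarith))
    exact h5.fst.contDiffWithinAt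

/-- For `m ≥ 9` there is a global radial profile. -/
theorem exists_radialSol (m : ℕ) (hm : 9 ≤ m) : ∃ (ε : ℝ) (g A K : ℝ → ℝ), RadialSol m ε g A K := by
  have hM : (9 : ℝ) ≤ (m : ℝ) := by exact_mod_cast hm
  obtain ⟨A, K, ε, hε, hAs, h⟩ := exists_glued hM
  have hAc : ContinuousOn A (Ioi (-ε)) := hAs.continuousOn
  set G : ℝ → ℝ := fun t => ∫ s in (0 : ℝ)..t, A s with hG
  have hGd : ∀ t, -ε < t → HasDerivAt G (A t) t := by
    intro t ht
    apply intervalIntegral.integral_hasDerivAt_right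
    · apply ContinuousOn.intervalIntegrable
      apply hAc.mono
      intro s hs
      rw [mem_uIcc] at hs
      rw [mem_Ioi]
      rcases hs with hs | hs <;> linarith [hs.1, hs.2]
    · exact hAc.stronglyMeasurableAtFilter isOpen_Ioi t ht
    · exact hAc.continuousAt (Ioi_mem_nhds ht)
  have hGs : ContDiffOn ℝ ∞ G (Ioi (-ε)) := by
    rw [contDiffOn_infty_iff_deriv_of_isOpen isOpen_Ioi]
    refine ⟨fun t ht => (hGd t ht).differentiableAt.differentiableWithinAt, ?_⟩
    apply hAs.congr
    intro t ht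
    exact (hGd t ht).deriv
  refine ⟨ε, fun t => Real.exp (G t), A, K, hm, hε, hGs.exp, fun t _ => Real.exp_pos _,
    fun t ht => (h t ht).1, fun t ht => (h t ht).2.1, fun t ht => (h t ht).2.2.1,
    fun t ht => (hGd t ht).exp, fun t ht => (h t ht).2.2.2.1, fun t ht => (h t ht).2.2.2.2⟩

end Vale.Agent.P252
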